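import Crest.Agent.S0071Aux.Defs

set_option autoImplicit false

namespace Crest.Agent.S0071Aux

open Finset

variable {α : Type} [Fintype α] [DecidableEq α]

lemma m0_Ll_ge (j : ℕ) : (4096 : ℝ) ≤ Ll j := by
  unfold Ll
  have h : (1 : ℝ) ≤ 8 ^ j := one_le_pow₀ (by norm_num)
  nlinarith

lemma m0_exists (q : ℝ) (hq : 0 < q) : ∃ J : ℕ, 1 ≤ ∑ j ∈ range (J + 1), Ll j * q := by
  obtain ⟨n, hn⟩ := exists_nat_gt (1 / (4096 * q))
  refine ⟨n, ?_⟩
  have h1 : ∑ _j ∈ range (n + 1), (4096 * q) ≤ ∑ j ∈ range (n + 1), Ll j * q := by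
    apply Finset.sum_le_sum
    intro j _
    exact mul_le_mul_of_nonneg_right (m0_Ll_ge j) hq.le
  rw [Finset.sum_const, card_range, nsmul_eq_mul] at h1
  have hpos : 0 < 4096 * q := by positivity
  have h2 : 1 < (n : ℝ) * (4096 * q) := by
    rwa [div_lt_iff₀ hpos] at hn
  push_cast at h1
  nlinarith

/-- M0 -/
lemma exists_params (q : ℝ) (hq : 0 < q) : ∃ (J : ℕ) (p : ℕ → ℝ), (∀ j, 0 ≤ p j) ∧
    (∀ j < J, p j = Ll j * q) ∧ (∀ j ≤ J, p j ≤ Ll j * q) ∧ ∑ j ∈ range (J + 1), p j = 1 := by
  classical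
  have hex := m0_exists q hq
  set J := Nat.find hex with hJ
  have hJspec : 1 ≤ ∑ j ∈ range (J + 1), Ll j * q := Nat.find_spec hex
  have hlt : ∑ j ∈ range J, Ll j * q ≤ 1 := by
    rcases Nat.eq_zero_or_pos J with h0 | hpos
    · rw [h0]; simp
    · have hmin := Nat.find_min hex (m := J - 1) (by omega)
      have he : J - 1 + 1 = J := by omega
      rw [he] at hmin
      exact (not_le.mp hmin).le
  refine ⟨J, fun j => if j < J then Ll j * q else 1 - ∑ i ∈ range J, Ll i * q, ?_, ?_, ?_, ?_⟩
  · intro j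
    by_cases h : j < J
    · simp only [h, if_true]
      have := m0_Ll_ge j
      have h0 : 0 ≤ Ll j := by linarith
      exact mul_nonneg h0 hq.le
    · simp only [h, if_false]
      linarith
  · intro j hj
    simp only [hj, if_true]
  · intro j hj
    by_cases h : j < J
    · simp only [h, if_true]; exact le_refl _
    · have hjJ : j = J := by omega
      simp only [h, if_false]
      rw [Finset.sum_range_succ] at hJspec
      rw [hjJ]
      linarith
  · rw [Finset.sum_range_succ]
    have h1 : ∑ x ∈ range J, (if x < J then Ll x * q else 1 - ∑ i ∈ range J, Ll i * q)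
        = ∑ x ∈ range J, Ll x * q := by
      apply Finset.sum_congr rfl
      intro x hx
      simp only [mem_range.mp hx, if_true]
    rw [h1]
    simp only [lt_irrefl, if_false]
    ring

end Crest.Agent.S0071Aux
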