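import Crest.Agent.S0071Aux.Defs

set_option autoImplicit false

namespace Crest.Agent.S0071Aux

open Finset

variable {α : Type} [Fintype α] [DecidableEq α]

/-- M1 -/
lemma sum_Pw_prod (J : ℕ) (p : ℕ → ℝ) (h : ∑ j ∈ range (J + 1), p j = 1) (I : Finset α)
    (z : ℕ → ℝ) :
    ∑ ω ∈ Om α J, Pw p ω * ∏ x ∈ I, z (ω x) = (∑ j ∈ range (J + 1), p j * z j) ^ I.card := by
  have h1 : ∀ ω : α → ℕ, Pw p ω * ∏ x ∈ I, z (ω x)
      = ∏ x, (p (ω x) * (if x ∈ I then z (ω x) else 1)) := by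
    intro ω
    rw [Finset.prod_mul_distrib]
    congr 1
    rw [Finset.prod_ite_mem]
    simp
  have h2 : ∑ ω ∈ Om α J, Pw p ω * ∏ x ∈ I, z (ω x)
      = ∏ x : α, ∑ j ∈ range (J + 1), (p j * (if x ∈ I then z j else 1)) := by
    rw [Finset.prod_univ_sum]
    exact Finset.sum_congr rfl (fun ω _ => h1 ω)
  rw [h2]
  have h3 : ∀ x : α, ∑ j ∈ range (J + 1), (p j * (if x ∈ I then z j else 1))
      = if x ∈ I then (∑ j ∈ range (J + 1), p j * z j) else 1 := by
    intro x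
    by_cases hx : x ∈ I
    · simp [hx]
    · simp [hx, h]
  rw [Finset.prod_congr rfl (fun x _ => h3 x), Finset.prod_ite_mem]
  simp
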