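import Crest.Agent.S0071Aux.Defs

/-! S0071, task M2 (cover lemma) of helper23's board.  helper5. -/

set_option autoImplicit false

namespace Crest.Agent.S0071Aux

open Finset

variable {α : Type} [Fintype α] [DecidableEq α]

lemma m2_mem_Om {J : ℕ} {ω : α → ℕ} : ω ∈ Om α J ↔ ∀ x, ω x ≤ J := by
  simp [Om, Fintype.mem_piFinset, Nat.lt_succ_iff]

lemma m2_chi_spec (F : Finset (Finset α)) (w : Finset α → α → ℝ) (J : ℕ) (ω : α → ℕ)
    (t : ℕ → ℕ) (h : ∃ H ∈ F, InQ w J ω t H) :
    chi F w J ω t ∈ F ∧ InQ w J ω t (chi F w J ω t) := by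
  unfold chi
  rw [dif_pos h]
  exact h.choose_spec

/-- one promotion step keeps the quotas -/
lemma m2_step (w : Finset α → α → ℝ) (J : ℕ) (ω ω' ω'' : α → ℕ) (χ : Finset α)
    (hQ : InQ w J ω' (tv ω' (Td ω ω')) χ) (x : α) (j : ℕ) (hj : ω' x = j)
    (hxx : ω'' x = j + 1) (hne : ∀ z, z ≠ x → ω'' z = ω' z) (hx : x ∈ Td ω ω')
    (hxC : x ∉ Cst (w χ) χ j (tv ω' (Td ω ω') j)) :
    InQ w J ω'' (tv ω'' (Td ω ω'')) χ := by
  classical
  have hmono : ∀ z, ω' z ≤ ω'' z := by
    intro z
    by_cases hz : z = x
    · rw [hz, hxx, hj]; omega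
    · rw [hne z hz]
  have hTsub : Td ω ω'' ⊆ Td ω ω' := by
    intro z hz
    simp only [Td, mem_filter, mem_univ, true_and] at hz ⊢
    exact lt_of_le_of_lt (hmono z) hz
  have ht : ∀ i, tv ω'' (Td ω ω'') i ≤ tv ω' (Td ω ω') i := by
    intro i
    unfold tv
    apply card_le_card
    intro z hz
    simp only [mem_filter] at hz ⊢
    exact ⟨hTsub hz.1, le_trans (hmono z) hz.2⟩
  have htj : tv ω'' (Td ω ω'') j + 1 ≤ tv ω' (Td ω ω') j := by
    unfold tv
    apply Nat.succ_le_of_lt
    apply card_lt_card
    rw [ssubset_iff_of_subset]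
    · refine ⟨x, ?_, ?_⟩
      · simp only [mem_filter]
        exact ⟨hx, le_of_eq hj⟩
      · simp only [mem_filter, not_and, not_le]
        intro _
        rw [hxx]; omega
    · intro z hz
      simp only [mem_filter] at hz ⊢
      exact ⟨hTsub hz.1, le_trans (hmono z) hz.2⟩
  have hN : ∀ i C, (i ≠ j ∨ x ∉ C) → Nn ω'' i C = Nn ω' i C := by
    intro i C h
    unfold Nn
    congr 1
    apply filter_congr
    intro z hz
    by_cases hzx : z = x
    · rcases h with h | h
      · rw [hzx, hxx, hj]; omega
      · exact absurd (hzx ▸ hz) h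
    · rw [hne z hzx]
  have hN1 : ∀ C, Nn ω'' j C ≤ Nn ω' j C + 1 := by
    intro C
    unfold Nn
    calc (C.filter (fun z => j < ω'' z)).card
        ≤ (insert x (C.filter (fun z => j < ω' z))).card := by
          apply card_le_card
          intro z hz
          simp only [mem_filter, mem_insert] at hz ⊢
          by_cases hzx : z = x
          · left; exact hzx
          · right; rw [hne z hzx] at hz; exact hz
      _ ≤ _ := card_insert_le _ _
  intro i hi y hy
  have old := hQ i hi y hy
  -- the case where `N` is unchanged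
  have same : Nn ω'' i (Lev (w χ) χ y) = Nn ω' i (Lev (w χ) χ y) →
      (Dd i * (Nn ω'' i (Lev (w χ) χ y) + tv ω'' (Td ω ω'') i) ≤ 2 * (Lev (w χ) χ y).card ∨
        Dd i * Nn ω'' i (Lev (w χ) χ y) ≤ (Lev (w χ) χ y).card) := by
    intro hsame
    rw [hsame]
    rcases old with old | old
    · left
      refine le_trans (Nat.mul_le_mul_left _ ?_) old
      have := ht i
      omega
    · right; exact old
  by_cases hij : i = j
  · subst hij
    by_cases hc : (Lev (w χ) χ y).card < Dd i * tv ω' (Td ω ω') i
    · apply same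
      apply hN
      right
      intro hxmem
      apply hxC
      simp only [Lev, mem_filter] at hxmem
      simp only [Cst, mem_filter]
      exact ⟨hxmem.1, y, hy, hxmem.2, hc⟩
    · push_neg at hc
      left
      have h1 : Dd i * (Nn ω' i (Lev (w χ) χ y) + tv ω' (Td ω ω') i)
          ≤ 2 * (Lev (w χ) χ y).card := by
        rcases old with old | old
        · exact old
        · rw [Nat.mul_add]; omega
      refine le_trans (Nat.mul_le_mul_left _ ?_) h1
      have := hN1 (Lev (w χ) χ y)
      omega
  · exact same (hN i _ (Or.inl hij))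

/-- M2 -/
lemma cover (F : Finset (Finset α)) (w : Finset α → α → ℝ) (J : ℕ) (ω : α → ℕ)
    (hω : ω ∈ Om α J) (hbad : ¬ ∃ H ∈ F, InQ w J ω 0 H) (S : Finset α) (hS : S ∈ F) :
    ∃ ω' ∈ Om α J, (∀ x, ω' x ≤ ω x) ∧ Td ω ω' ⊆ S ∧ Valid F w J ω' (Td ω ω') := by
  classical
  have hωJ := m2_mem_Om.1 hω
  have main : ∀ n : ℕ, ∀ ω' : α → ℕ, ∑ z, (ω z - ω' z) = n → (∀ x, ω' x ≤ ω x) →
      Td ω ω' ⊆ S → (∃ H ∈ F, InQ w J ω' (tv ω' (Td ω ω')) H) →
      ∃ ω' ∈ Om α J, (∀ x, ω' x ≤ ω x) ∧ Td ω ω' ⊆ S ∧ Valid F w J ω' (Td ω ω') := by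
    intro n
    induction n using Nat.strong_induction_on with
    | _ n ih =>
      intro ω' hn hle hsub hex
      have hTne : (Td ω ω').Nonempty := by
        by_contra hemp
        rw [not_nonempty_iff_eq_empty] at hemp
        have heq : ω' = ω := by
          funext z
          have : z ∉ Td ω ω' := by rw [hemp]; exact notMem_empty z
          simp only [Td, mem_filter, mem_univ, true_and, not_lt] at this
          exact le_antisymm (hle z) this
        apply hbad
        obtain ⟨H, hH, hQ⟩ := hex
        refine ⟨H, hH, ?_⟩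
        rw [hemp, heq] at hQ
        have h0 : tv ω ∅ = 0 := by funext i; simp [tv]
        rw [h0] at hQ; exact hQ
      obtain ⟨hχF, hχQ⟩ := m2_chi_spec F w J ω' _ hex
      by_cases hall : ∀ x ∈ Td ω ω',
          x ∈ Cst (w (chi F w J ω' (tv ω' (Td ω ω')))) (chi F w J ω' (tv ω' (Td ω ω'))) (ω' x)
            (tv ω' (Td ω ω') (ω' x))
      · refine ⟨ω', m2_mem_Om.2 (fun x => le_trans (hle x) (hωJ x)), hle, hsub, hTne, hex, ?_⟩
        intro x hx
        refine ⟨?_, hall x hx⟩
        have hx' := hx
        simp only [Td, mem_filter, mem_univ, true_and] at hx'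
        exact lt_of_lt_of_le hx' (hωJ x)
      · push_neg at hall
        obtain ⟨x, hx, hxC⟩ := hall
        have hx' := hx
        simp only [Td, mem_filter, mem_univ, true_and] at hx'
        have hxx : Function.update ω' x (ω' x + 1) x = ω' x + 1 := by simp
        have hne : ∀ z, z ≠ x → Function.update ω' x (ω' x + 1) z = ω' z := by
          intro z hz; exact Function.update_of_ne hz _ _
        have hstep := m2_step w J ω ω' (Function.update ω' x (ω' x + 1)) _ hχQ x (ω' x) rfl
          hxx hne hx hxC
        have hle'' : ∀ z, Function.update ω' x (ω' x + 1) z ≤ ω z := by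
          intro z
          by_cases hz : z = x
          · rw [hz, hxx]; exact hx'
          · rw [hne z hz]; exact hle z
        have hmono : ∀ z, ω' z ≤ Function.update ω' x (ω' x + 1) z := by
          intro z
          by_cases hz : z = x
          · rw [hz, hxx]; omega
          · rw [hne z hz]
        have hsub'' : Td ω (Function.update ω' x (ω' x + 1)) ⊆ S := by
          intro z hz
          apply hsub
          simp only [Td, mem_filter, mem_univ, true_and] at hz ⊢
          exact lt_of_le_of_lt (hmono z) hz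
        have hlt : ∑ z, (ω z - Function.update ω' x (ω' x + 1) z) < n := by
          rw [← hn]
          apply sum_lt_sum
          · intro z _
            have := hmono z
            omega
          · refine ⟨x, mem_univ x, ?_⟩
            rw [hxx]; omega
        exact ih _ hlt _ rfl hle'' hsub'' ⟨_, hχF, hstep⟩
  refine main _ (fun x => if x ∈ S then 0 else ω x) rfl ?_ ?_ ⟨S, hS, ?_⟩
  · intro x
    by_cases hx : x ∈ S <;> simp [hx]
  · intro x hx
    simp only [Td, mem_filter, mem_univ, true_and] at hx
    by_contra hxS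
    simp [hxS] at hx
  · intro j _ y _
    right
    have : Nn (fun x => if x ∈ S then 0 else ω x) j (Lev (w S) S y) = 0 := by
      unfold Nn
      rw [card_eq_zero, filter_eq_empty_iff]
      intro z hz
      simp only [Lev, mem_filter] at hz
      simp [hz.1]
    rw [this]
    simp

end Crest.Agent.S0071Aux
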