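import Crest.Agent.S0071Aux.Defs

set_option autoImplicit false

namespace Crest.Agent.S0071Aux

open Finset

variable {α : Type} [Fintype α] [DecidableEq α]

/-- M7 -/
lemma layer_cake (H : Finset α) (w : α → ℝ) (hw : ∀ x ∈ H, 0 ≤ w x) (c : α → ℝ)
    (h : ∀ y ∈ H, ∑ x ∈ Lev w H y, c x ≤ 0) : ∑ x ∈ H, w x * c x ≤ 0 := by
  induction' hn : H.card using Nat.strong_induction_on with n ih generalizing H w
  rcases H.eq_empty_or_nonempty with rfl | hne
  · simp
  obtain ⟨y0, hy0, hmin⟩ := H.exists_min_image w hne
  set H' := H.filter (fun x => w y0 < w x) with hH'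
  have hcard : H'.card < n := by
    rw [← hn]
    apply Finset.card_lt_card
    refine ⟨Finset.filter_subset _ _, fun hsub => ?_⟩
    have := hsub hy0
    simp [hH'] at this
  have hLev0 : Lev w H y0 = H := by
    unfold Lev
    exact Finset.filter_true_of_mem (fun x hx => hmin x hx)
  have h0 : ∑ x ∈ H, c x ≤ 0 := by
    have := h y0 hy0
    rwa [hLev0] at this
  have hrec : ∑ x ∈ H', (w x - w y0) * c x ≤ 0 := by
    apply ih H'.card hcard H' (fun x => w x - w y0) _ _ rfl
    · intro x hx
      have := (Finset.mem_filter.mp hx).2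
      linarith
    · intro y hy
      have hyH := (Finset.mem_filter.mp hy).1
      have hyw := (Finset.mem_filter.mp hy).2
      have : Lev (fun x => w x - w y0) H' y = Lev w H y := by
        unfold Lev
        ext x
        simp only [Finset.mem_filter, hH']
        constructor
        · rintro ⟨⟨hx, _⟩, h2⟩
          exact ⟨hx, by linarith⟩
        · rintro ⟨hx, h2⟩
          exact ⟨⟨hx, by linarith⟩, by linarith⟩
      rw [this]
      exact h y hyH
  have hsplit : ∑ x ∈ H, w x * c x = w y0 * ∑ x ∈ H, c x + ∑ x ∈ H', (w x - w y0) * c x := by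
    rw [Finset.mul_sum, hH', Finset.sum_filter, ← Finset.sum_add_distrib]
    apply Finset.sum_congr rfl
    intro x hx
    by_cases hx' : w y0 < w x
    · rw [if_pos hx']; ring
    · rw [if_neg hx']
      have : w x = w y0 := le_antisymm (not_lt.mp hx') (hmin x hx)
      rw [this]; ring
  rw [hsplit]
  have h1 : w y0 * ∑ x ∈ H, c x ≤ 0 := mul_nonpos_of_nonneg_of_nonpos (hw y0 hy0) h0
  linarith

end Crest.Agent.S0071Aux
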