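import Crest.Agent.S0071Aux.Defs
import Crest.Agent.S0071Aux.M7

set_option autoImplicit false

namespace Crest.Agent.S0071Aux

open Finset

variable {α : Type} [Fintype α] [DecidableEq α]

omit [Fintype α] in
lemma m8_swap (g : Finset α → ℝ) (H : Finset α) (f : α → ℝ) :
    ∑ x ∈ H, wH g H x * f x = ∑ I ∈ H.powerset, g I / I.card * ∑ x ∈ I, f x := by
  unfold wH
  simp_rw [Finset.sum_mul, Finset.sum_filter]
  rw [Finset.sum_comm]
  apply Finset.sum_congr rfl
  intro I hI
  have hIH : I ⊆ H := Finset.mem_powerset.mp hI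
  rw [Finset.sum_ite_mem, Finset.inter_eq_right.mpr hIH, Finset.mul_sum]

lemma m8_geom (J : ℕ) : ∑ j ∈ range J, (1 / (Dd j : ℝ)) ≤ 1 / 4 := by
  have h : ∑ j ∈ range J, (1 / (Dd j : ℝ)) = 1 / 4 - 1 / 2 ^ (J + 2) := by
    induction J with
    | zero => norm_num
    | succ J ih =>
      rw [Finset.sum_range_succ, ih]
      have e1 : ((Dd J : ℕ) : ℝ) = 2 * 2 ^ (J + 2) := by
        unfold Dd
        push_cast
        ring
      have e2 : (2 : ℝ) ^ (J + 1 + 2) = 2 * 2 ^ (J + 2) := by ring
      rw [e1, e2]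
      have hp : (0 : ℝ) < 2 ^ (J + 2) := by positivity
      field_simp
      ring
  rw [h]
  have hp : (0 : ℝ) < 1 / 2 ^ (J + 2) := by positivity
  linarith

/-- M8 -/
lemma Phi_ge (F : Finset (Finset α)) (g : Finset α → ℝ) (hg : ∀ S, 0 ≤ g S)
    (hcov : ∀ H ∈ F, 1 ≤ ∑ S ∈ H.powerset, g S) (J : ℕ) (ω : α → ℕ) (hω : ω ∈ Om α J)
    (hgood : ∃ H ∈ F, InQ (wH g) J ω 0 H) : (1 - g ∅) / 2 ≤ Phi g ω := by
  obtain ⟨H, hHF, hQ⟩ := hgood
  have hw0 : ∀ x, 0 ≤ wH g H x := by
    intro x
    unfold wH
    apply Finset.sum_nonneg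
    intro I _
    exact div_nonneg (hg I) (Nat.cast_nonneg _)
  set W := ∑ x ∈ H, wH g H x with hW
  have hW0 : 0 ≤ W := Finset.sum_nonneg (fun x _ => hw0 x)
  have hωJ : ∀ x, ω x ≤ J := by
    intro x
    have := Fintype.mem_piFinset.mp hω x
    exact Nat.lt_succ_iff.mp (Finset.mem_range.mp this)
  have h2 : ∀ j < J, (Dd j : ℝ) * ∑ x ∈ H, wH g H x * (if j < ω x then 1 else 0) ≤ 2 * W := by
    intro j hj
    have hlc := layer_cake H (wH g H) (fun x _ => hw0 x)
      (fun x => (Dd j : ℝ) * (if j < ω x then 1 else 0) - 2) ?_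
    · have e : ∑ x ∈ H, wH g H x * ((Dd j : ℝ) * (if j < ω x then 1 else 0) - 2) =
          (Dd j : ℝ) * ∑ x ∈ H, wH g H x * (if j < ω x then 1 else 0) - 2 * W := by
        rw [hW, Finset.mul_sum, Finset.mul_sum, ← Finset.sum_sub_distrib]
        apply Finset.sum_congr rfl
        intro x _
        ring
      linarith
    · intro y hy
      have hq := hQ j hj y hy
      have e : ∑ x ∈ Lev (wH g H) H y, ((Dd j : ℝ) * (if j < ω x then 1 else 0) - 2) =
          (Dd j : ℝ) * (Nn ω j (Lev (wH g H) H y) : ℝ) - 2 * ((Lev (wH g H) H y).card : ℝ) := by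
        rw [Finset.sum_sub_distrib, ← Finset.mul_sum, Finset.sum_boole]
        simp [Nn, mul_comm]
      rw [e]
      have hq' : Dd j * Nn ω j (Lev (wH g H) H y) ≤ 2 * (Lev (wH g H) H y).card := by
        rcases hq with h | h
        · simpa using h
        · exact le_trans h (by omega)
      have hq'' : ((Dd j * Nn ω j (Lev (wH g H) H y) : ℕ) : ℝ) ≤
          ((2 * (Lev (wH g H) H y).card : ℕ) : ℝ) := by exact_mod_cast hq'
      push_cast at hq''
      linarith
  have h3 : ∑ x ∈ H, wH g H x * (ω x : ℝ) ≤ W / 2 := by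
    have e : ∀ x, (ω x : ℝ) = ∑ j ∈ range J, (if j < ω x then (1 : ℝ) else 0) := by
      intro x
      rw [Finset.sum_boole]
      have : (range J).filter (fun j => j < ω x) = range (ω x) := by
        ext j
        simp only [mem_filter, mem_range]
        constructor
        · exact fun h => h.2
        · exact fun h => ⟨lt_of_lt_of_le h (hωJ x), h⟩
      rw [this, card_range]
    calc ∑ x ∈ H, wH g H x * (ω x : ℝ)
        = ∑ x ∈ H, ∑ j ∈ range J, wH g H x * (if j < ω x then 1 else 0) := by
          apply Finset.sum_congr rfl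
          intro x _
          rw [e x, Finset.mul_sum]
      _ = ∑ j ∈ range J, ∑ x ∈ H, wH g H x * (if j < ω x then 1 else 0) := Finset.sum_comm
      _ ≤ ∑ j ∈ range J, 2 * W * (1 / (Dd j : ℝ)) := by
          apply Finset.sum_le_sum
          intro j hj
          have h := h2 j (mem_range.mp hj)
          have hD : (0 : ℝ) < Dd j := by
            unfold Dd
            positivity
          rw [mul_one_div, le_div_iff₀ hD]
          linarith
      _ = 2 * W * ∑ j ∈ range J, (1 / (Dd j : ℝ)) := (Finset.mul_sum _ _ _).symm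
      _ ≤ 2 * W * (1 / 4) := mul_le_mul_of_nonneg_left (m8_geom J) (by linarith)
      _ = W / 2 := by ring
  have hA1 : W = ∑ I ∈ H.powerset, (if I.Nonempty then g I else 0) := by
    have h := m8_swap g H (fun _ => 1)
    simp only [mul_one] at h
    rw [hW, h]
    apply Finset.sum_congr rfl
    intro I _
    by_cases hI : I.Nonempty
    · have hc : (I.card : ℝ) ≠ 0 := by exact_mod_cast (Finset.card_pos.mpr hI).ne'
      simp only [hI, if_true, Finset.sum_const, nsmul_eq_mul, mul_one]
      field_simp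
    · simp [Finset.not_nonempty_iff_eq_empty.mp hI]
  have hA2 := m8_swap g H (fun x => (ω x : ℝ))
  have key : ∀ I ∈ H.powerset, (if I.Nonempty then g I else 0) ≤
      (if (I.Nonempty ∧ ∑ x ∈ I, ω x ≤ I.card) then g I else 0) +
        g I / I.card * ∑ x ∈ I, (ω x : ℝ) := by
    intro I _
    have hnn : 0 ≤ g I / I.card * ∑ x ∈ I, (ω x : ℝ) :=
      mul_nonneg (div_nonneg (hg I) (Nat.cast_nonneg _))
        (Finset.sum_nonneg (fun x _ => Nat.cast_nonneg _))
    by_cases hI : I.Nonempty
    · by_cases h : ∑ x ∈ I, ω x ≤ I.card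
      · simp only [hI, h, and_self, if_true]
        linarith
      · have hc : (0 : ℝ) < I.card := by exact_mod_cast Finset.card_pos.mpr hI
        have h' : (I.card : ℝ) ≤ ∑ x ∈ I, (ω x : ℝ) := by
          have : I.card ≤ ∑ x ∈ I, ω x := by omega
          exact_mod_cast this
        simp only [hI, h, and_false, if_true, if_false, zero_add]
        calc g I = g I / I.card * I.card := by field_simp
          _ ≤ _ := mul_le_mul_of_nonneg_left h' (div_nonneg (hg I) hc.le)
    · simp only [hI, false_and, if_false, zero_add]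
      exact hnn
  have hsum : W ≤ ∑ I ∈ H.powerset, (if (I.Nonempty ∧ ∑ x ∈ I, ω x ≤ I.card) then g I else 0) +
      ∑ x ∈ H, wH g H x * (ω x : ℝ) := by
    rw [hA2, ← Finset.sum_add_distrib, hA1]
    exact Finset.sum_le_sum key
  have hPhi : ∑ I ∈ H.powerset, (if (I.Nonempty ∧ ∑ x ∈ I, ω x ≤ I.card) then g I else 0) ≤
      Phi g ω := by
    unfold Phi
    rw [Finset.sum_filter]
    apply Finset.sum_le_sum_of_subset_of_nonneg (Finset.subset_univ _)
    intro I _ _
    split_ifs
    · exact hg I
    · exact le_rfl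
  have hM : 1 - g ∅ ≤ W := by
    have hc := hcov H hHF
    have e : ∑ S ∈ H.powerset, g S = g ∅ + ∑ I ∈ H.powerset, (if I.Nonempty then g I else 0) := by
      rw [← Finset.add_sum_erase _ _ (Finset.empty_mem_powerset H)]
      congr 1
      rw [← Finset.add_sum_erase H.powerset (fun I => if I.Nonempty then g I else 0)
        (Finset.empty_mem_powerset H)]
      simp only [Finset.not_nonempty_empty, if_false, zero_add]
      apply Finset.sum_congr rfl
      intro I hI
      have : I.Nonempty := Finset.nonempty_iff_ne_empty.mpr (Finset.ne_of_mem_erase hI)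
      simp [this]
    rw [hA1]
    linarith
  linarith

end Crest.Agent.S0071Aux
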