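import Crest.Agent.S0071Aux.Defs

/-! S0071 board, task M9 (helper11): first-moment bound for `Phi`. Self-contained (own copy of M1). -/

set_option autoImplicit false

namespace Crest.Agent.S0071Aux

open Finset

variable {α : Type} [Fintype α] [DecidableEq α]

lemma m9_sum_Pw_prod (J : ℕ) (p : ℕ → ℝ) (h : ∑ j ∈ range (J + 1), p j = 1) (I : Finset α)
    (z : ℕ → ℝ) :
    ∑ ω ∈ Om α J, Pw p ω * ∏ x ∈ I, z (ω x) = (∑ j ∈ range (J + 1), p j * z j) ^ I.card := by
  classical
  have h1 : ∀ ω : α → ℕ, Pw p ω * ∏ x ∈ I, z (ω x)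
      = ∏ x, (p (ω x) * (if x ∈ I then z (ω x) else 1)) := by
    intro ω
    unfold Pw
    rw [Finset.prod_mul_distrib]
    congr 1
    rw [Finset.prod_ite_mem]
    simp
  simp_rw [h1]
  unfold Om
  rw [← Finset.prod_univ_sum (fun _ : α => range (J + 1))
    (fun (x : α) (j : ℕ) => p j * (if x ∈ I then z j else 1))]
  have h2 : ∀ x : α, ∑ j ∈ range (J + 1), p j * (if x ∈ I then z j else 1)
      = if x ∈ I then ∑ j ∈ range (J + 1), p j * z j else 1 := by
    intro x
    split_ifs with hx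
    · rfl
    · simpa using h
  simp_rw [h2]
  rw [Finset.prod_ite_mem]
  simp [Finset.prod_const]

lemma m9_ind_le (I : Finset α) (ω : α → ℕ) (h : ∑ x ∈ I, ω x ≤ I.card) :
    (1 : ℝ) ≤ ∏ x ∈ I, (16 * (1 / 16 : ℝ) ^ (ω x)) := by
  rw [Finset.prod_mul_distrib, Finset.prod_const, Finset.prod_pow_eq_pow_sum]
  obtain ⟨k, hk⟩ := Nat.exists_eq_add_of_le h
  rw [hk, pow_add, mul_right_comm, ← mul_pow]
  norm_num
  exact one_le_pow₀ (by norm_num)

/-- M9 -/
lemma EPhi_le (J : ℕ) (p : ℕ → ℝ) (q : ℝ) (hq : 0 ≤ q) (hp0 : ∀ j, 0 ≤ p j)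
    (hple : ∀ j ≤ J, p j ≤ Ll j * q) (hsum : ∑ j ∈ range (J + 1), p j = 1)
    (g : Finset α → ℝ) (hg : ∀ S, 0 ≤ g S) :
    ∑ ω ∈ Om α J, Pw p ω * Phi g ω
      ≤ ∑ I ∈ (univ : Finset (Finset α)).filter Finset.Nonempty, g I * (131072 * q) ^ I.card := by
  classical
  set z : ℕ → ℝ := fun j => 16 * (1 / 16 : ℝ) ^ j with hz
  have hPw : ∀ ω : α → ℕ, 0 ≤ Pw p ω := fun ω => Finset.prod_nonneg (fun x _ => hp0 _)
  have hzpos : ∀ j, 0 ≤ z j := fun j => by simp only [hz]; positivity
  have hbound : ∑ j ∈ range (J + 1), p j * z j ≤ 131072 * q := by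
    calc ∑ j ∈ range (J + 1), p j * z j
        ≤ ∑ j ∈ range (J + 1), (65536 * q) * (1 / (2:ℝ)) ^ j := by
          apply Finset.sum_le_sum
          intro j hj
          have hj' : j ≤ J := Nat.lt_succ_iff.mp (Finset.mem_range.mp hj)
          have h3 := mul_le_mul_of_nonneg_right (hple j hj') (hzpos j)
          calc p j * z j ≤ Ll j * q * z j := h3
            _ = (65536 * q) * (1 / (2:ℝ)) ^ j := by
              simp only [Ll, hz]
              have h4 : (8:ℝ) ^ j * (1 / 16 : ℝ) ^ j = (1 / 2 : ℝ) ^ j := by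
                rw [← mul_pow]; norm_num
              calc 4096 * 8 ^ j * q * (16 * (1 / 16 : ℝ) ^ j)
                  = 65536 * q * ((8:ℝ) ^ j * (1 / 16 : ℝ) ^ j) := by ring
                _ = _ := by rw [h4]
      _ = (65536 * q) * ∑ j ∈ range (J + 1), (1 / (2:ℝ)) ^ j := by rw [Finset.mul_sum]
      _ ≤ (65536 * q) * 2 :=
          mul_le_mul_of_nonneg_left (sum_geometric_two_le _) (by positivity)
      _ = 131072 * q := by ring
  have h1 : ∀ ω : α → ℕ, Phi g ω
      ≤ ∑ I ∈ (univ : Finset (Finset α)).filter Finset.Nonempty, g I * ∏ x ∈ I, z (ω x) := by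
    intro ω
    unfold Phi
    calc ∑ I : Finset α with (I.Nonempty ∧ ∑ x ∈ I, ω x ≤ I.card), g I
        ≤ ∑ I : Finset α with (I.Nonempty ∧ ∑ x ∈ I, ω x ≤ I.card),
            g I * ∏ x ∈ I, z (ω x) := by
          apply Finset.sum_le_sum
          intro I hI
          rw [Finset.mem_filter] at hI
          exact le_mul_of_one_le_right (hg I) (m9_ind_le I ω hI.2.2)
      _ ≤ _ := by
          apply Finset.sum_le_sum_of_subset_of_nonneg
          · intro I hI
            rw [Finset.mem_filter] at hI ⊢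
            exact ⟨hI.1, hI.2.1⟩
          · intro I _ _
            exact mul_nonneg (hg I) (Finset.prod_nonneg (fun x _ => hzpos _))
  calc ∑ ω ∈ Om α J, Pw p ω * Phi g ω
      ≤ ∑ ω ∈ Om α J, Pw p ω *
          ∑ I ∈ (univ : Finset (Finset α)).filter Finset.Nonempty, g I * ∏ x ∈ I, z (ω x) :=
        Finset.sum_le_sum (fun ω _ => mul_le_mul_of_nonneg_left (h1 ω) (hPw ω))
    _ = ∑ I ∈ (univ : Finset (Finset α)).filter Finset.Nonempty,
          g I * ∑ ω ∈ Om α J, Pw p ω * ∏ x ∈ I, z (ω x) := by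
        simp_rw [Finset.mul_sum]
        rw [Finset.sum_comm]
        apply Finset.sum_congr rfl
        intro I _
        apply Finset.sum_congr rfl
        intro ω _
        ring
    _ = ∑ I ∈ (univ : Finset (Finset α)).filter Finset.Nonempty,
          g I * (∑ j ∈ range (J + 1), p j * z j) ^ I.card := by
        simp_rw [m9_sum_Pw_prod J p hsum]
    _ ≤ _ := by
        apply Finset.sum_le_sum
        intro I _
        apply mul_le_mul_of_nonneg_left _ (hg I)
        exact pow_le_pow_left₀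
          (Finset.sum_nonneg (fun j _ => mul_nonneg (hp0 j) (hzpos j))) hbound _

end Crest.Agent.S0071Aux
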