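import Crest.Agent.S0071Aux.Defs

set_option autoImplicit false

namespace Crest.Agent.S0071Aux

open Finset

variable {α : Type} [Fintype α] [DecidableEq α]

lemma m3_Ll_pos (j : ℕ) : 0 < Ll j := by
  unfold Ll; positivity

open Classical in
/-- M3 -/
lemma change_var (J : ℕ) (p : ℕ → ℝ) (q : ℝ) (hq : 0 ≤ q) (hp0 : ∀ j, 0 ≤ p j)
    (hp : ∀ j < J, p j = Ll j * q) (hsum : ∑ j ∈ range (J + 1), p j = 1)
    (ω' : α → ℕ) (hω' : ω' ∈ Om α J) (T : Finset α) (hT : ∀ x ∈ T, ω' x < J) :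
    ∑ ω ∈ (Om α J).filter (fun ω => (∀ x, ω' x ≤ ω x) ∧ Td ω ω' = T), Pw p ω * q ^ T.card
      ≤ Pw p ω' * ∏ x ∈ T, (1 / Ll (ω' x)) := by
  set Sx : α → Finset ℕ := fun x => if x ∈ T then range (J + 1) else {ω' x} with hSx
  have hsub : (Om α J).filter (fun ω => (∀ x, ω' x ≤ ω x) ∧ Td ω ω' = T) ⊆ Fintype.piFinset Sx := by
    intro ω hω
    rw [mem_filter] at hω
    obtain ⟨hOm, hle, hTd⟩ := hω
    rw [Fintype.mem_piFinset]
    intro x
    by_cases hx : x ∈ T
    · simp only [hSx, hx, if_true]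
      exact (Fintype.mem_piFinset.mp hOm) x
    · simp only [hSx, hx, if_false, mem_singleton]
      have : x ∉ Td ω ω' := by rw [hTd]; exact hx
      simp only [Td, mem_filter, mem_univ, true_and, not_lt] at this
      exact le_antisymm this (hle x)
  have h1 : ∑ ω ∈ (Om α J).filter (fun ω => (∀ x, ω' x ≤ ω x) ∧ Td ω ω' = T), Pw p ω
      ≤ ∑ ω ∈ Fintype.piFinset Sx, Pw p ω := by
    apply Finset.sum_le_sum_of_subset_of_nonneg hsub
    intro ω _ _
    exact Finset.prod_nonneg (fun x _ => hp0 _)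
  have h2 : ∑ ω ∈ Fintype.piFinset Sx, Pw p ω = ∏ x, (if x ∈ T then 1 else p (ω' x)) := by
    unfold Pw
    rw [← Finset.prod_univ_sum]
    apply Finset.prod_congr rfl
    intro x _
    by_cases hx : x ∈ T
    · simp only [hSx, hx, if_true]; exact hsum
    · simp only [hSx, hx, if_false, sum_singleton]
  have h3 : Pw p ω' * ∏ x ∈ T, (1 / Ll (ω' x)) = (∏ x, (if x ∈ T then 1 else p (ω' x))) * q ^ T.card := by
    have e1 : ∏ x ∈ T, (1 / Ll (ω' x)) = ∏ x, (if x ∈ T then 1 / Ll (ω' x) else 1) := by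
      rw [Finset.prod_ite_mem, Finset.univ_inter]
    have e2 : q ^ T.card = ∏ x, (if x ∈ T then q else 1) := by
      rw [Finset.prod_ite_mem, Finset.univ_inter, Finset.prod_const]
    unfold Pw
    rw [e1, e2, ← Finset.prod_mul_distrib, ← Finset.prod_mul_distrib]
    apply Finset.prod_congr rfl
    intro x _
    by_cases hx : x ∈ T
    · simp only [hx, if_true]
      rw [hp _ (hT x hx)]
      have := m3_Ll_pos (ω' x)
      field_simp
    · simp only [hx, if_false]
  rw [← Finset.sum_mul, h3]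
  apply mul_le_mul_of_nonneg_right _ (pow_nonneg hq _)
  rw [← h2]
  exact h1

end Crest.Agent.S0071Aux
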