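import Crest.Agent.S0071Aux.Defs

set_option autoImplicit false

namespace Crest.Agent.S0071Aux

open Finset

variable {α : Type} [Fintype α] [DecidableEq α]

/-- own copy of M6 (kept local so that this file only depends on `Defs`). -/
lemma m4_card_Cst_le (w : α → ℝ) (H : Finset α) (j tj : ℕ) :
    (Cst w H j tj).card ≤ Dd j * tj := by
  classical
  by_cases hne : (Cst w H j tj).Nonempty
  · obtain ⟨x0, hx0⟩ := hne
    have hx0' := hx0
    unfold Cst at hx0'
    rw [mem_filter] at hx0'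
    obtain ⟨_, y1, hy1H, _, hy1c⟩ := hx0'
    set Y : Finset α := H.filter (fun y => (Lev w H y).card < Dd j * tj) with hY
    have hYne : Y.Nonempty := ⟨y1, by rw [hY, mem_filter]; exact ⟨hy1H, hy1c⟩⟩
    obtain ⟨y0, hy0, hmin⟩ := Finset.exists_min_image Y w hYne
    have hy0' : y0 ∈ H ∧ (Lev w H y0).card < Dd j * tj := by
      rw [hY, mem_filter] at hy0; exact hy0
    have hsub : Cst w H j tj ⊆ Lev w H y0 := by
      intro x hx
      unfold Cst at hx
      rw [mem_filter] at hx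
      obtain ⟨hxH, y, hyH, hyx, hyc⟩ := hx
      have hyY : y ∈ Y := by rw [hY, mem_filter]; exact ⟨hyH, hyc⟩
      unfold Lev
      rw [mem_filter]
      exact ⟨hxH, le_trans (hmin y hyY) hyx⟩
    exact le_trans (card_le_card hsub) hy0'.2.le
  · rw [not_nonempty_iff_eq_empty] at hne
    rw [hne]; simp

lemma m4_geom (J : ℕ) : ∑ j ∈ range J, (1 / 2 ^ (j + 1) : ℝ) = 1 - 1 / 2 ^ J := by
  induction J with
  | zero => simp
  | succ n ih =>
    rw [sum_range_succ, ih]
    field_simp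
    ring

/-- `tv` is determined by `sv` when all labels on `T` are `< J`. -/
lemma m4_tv_eq (J : ℕ) (ω' : α → ℕ) (T : Finset α) (hT : ∀ x ∈ T, ω' x < J) (j : ℕ) :
    tv ω' T j = tOf (sv J ω' T) j := by
  classical
  unfold tv tOf sv
  rw [Finset.sum_filter]
  rw [Fin.sum_univ_eq_sum_range
    (fun i => if i ≤ j then (T.filter (fun x => ω' x = i)).card else 0) J]
  have hmaps : ((T.filter (fun x => ω' x ≤ j) : Finset α) : Set α).MapsTo ω' (range J) := by
    intro x hx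
    have hx' : x ∈ T.filter (fun x => ω' x ≤ j) := hx
    rw [mem_filter] at hx'
    simpa using hT x hx'.1
  rw [card_eq_sum_card_fiberwise hmaps]
  refine sum_congr rfl ?_
  intro i _
  by_cases hij : i ≤ j
  · rw [if_pos hij]
    congr 1
    ext x
    simp only [mem_filter]
    constructor
    · rintro ⟨⟨h1, _⟩, h3⟩; exact ⟨h1, h3⟩
    · rintro ⟨h1, h3⟩; exact ⟨⟨h1, by omega⟩, h3⟩
  · rw [if_neg hij]
    rw [card_eq_zero, filter_eq_empty_iff]
    intro x hx
    rw [mem_filter] at hx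
    omega

/-- product of a function of the label over `T`, by label classes. -/
lemma m4_prod_label (J : ℕ) (ω' : α → ℕ) (T : Finset α) (hT : ∀ x ∈ T, ω' x < J) (c : ℕ → ℝ) :
    ∏ x ∈ T, c (ω' x) = ∏ j : Fin J, c (j : ℕ) ^ (sv J ω' T j) := by
  classical
  unfold sv
  rw [Fin.prod_univ_eq_prod_range
    (fun i => c i ^ (T.filter (fun x => ω' x = i)).card) J]
  have hmaps : ∀ x ∈ T, ω' x ∈ range J := fun x hx => by simpa using hT x hx
  rw [← prod_fiberwise_of_maps_to' hmaps c]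
  refine prod_congr rfl ?_
  intro i _
  rw [prod_const]

lemma m4_tOf_le {J : ℕ} (s : Fin J → ℕ) (j : ℕ) : tOf s j ≤ ∑ i, s i := by
  unfold tOf
  exact sum_le_sum_of_subset (filter_subset _ _)

lemma m4_Ll_split (j : ℕ) :
    (1 / Ll j : ℝ) = (1 / (2 ^ (j + 1) * (Dd j : ℝ))) * ((1 / 256) / 2 ^ j) := by
  unfold Ll Dd
  have h8 : (8 : ℝ) ^ j = 2 ^ j * 2 ^ j * 2 ^ j := by
    rw [← mul_pow, ← mul_pow]; norm_num
  push_cast
  rw [h8]
  have h2 : (2 : ℝ) ^ j ≠ 0 := by positivity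
  field_simp
  ring

open Classical in
/-- M4 -/
lemma sum_fixed_s (F : Finset (Finset α)) (w : Finset α → α → ℝ) (J : ℕ) (ω' : α → ℕ)
    (s : Fin J → ℕ) :
    ∑ T ∈ (univ : Finset (Finset α)).filter (fun T => Valid F w J ω' T ∧ sv J ω' T = s),
        ∏ x ∈ T, (1 / Ll (ω' x))
      ≤ ∏ j : Fin J, ((3 / 256 : ℝ) / 2 ^ (j : ℕ)) ^ (s j) := by
  set t : ℕ → ℕ := tOf s with ht
  set χ : Finset α := chi F w J ω' t with hχ
  set A : Finset α :=
    univ.filter (fun x => ω' x < J ∧ x ∈ Cst (w χ) χ (ω' x) (t (ω' x))) with hA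
  set v : ℕ → ℝ := fun j => 1 / (2 ^ (j + 1) * (Dd j : ℝ)) with hv
  set c : ℕ → ℝ := fun j => (1 / 256) / 2 ^ j with hc
  set P : ℝ := ∏ j : Fin J, c (j : ℕ) ^ (s j) with hP
  set tot : ℕ := ∑ i, s i with htot
  have hv0 : ∀ j, 0 ≤ v j := fun j => by rw [hv]; positivity
  have hP0 : 0 ≤ P := by
    rw [hP]; refine prod_nonneg ?_; intro j _; rw [hc]; positivity
  -- facts about members of the index set
  have hmem : ∀ T ∈ (univ : Finset (Finset α)).filter
      (fun T => Valid F w J ω' T ∧ sv J ω' T = s),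
      (∀ x ∈ T, ω' x < J) ∧ T ⊆ A ∧ sv J ω' T = s := by
    intro T hT
    rw [mem_filter] at hT
    obtain ⟨_, hval, hsv⟩ := hT
    have hlab : ∀ x ∈ T, ω' x < J := fun x hx => (hval.2.2 x hx).1
    have htv : tv ω' T = t := by
      funext j
      rw [m4_tv_eq J ω' T hlab j, hsv]
    refine ⟨hlab, ?_, hsv⟩
    intro x hx
    have h := (hval.2.2 x hx)
    rw [htv] at h
    rw [hA, mem_filter]
    exact ⟨mem_univ _, h.1, h.2⟩
  -- rewrite each term
  have hterm : ∀ T ∈ (univ : Finset (Finset α)).filter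
      (fun T => Valid F w J ω' T ∧ sv J ω' T = s),
      ∏ x ∈ T, (1 / Ll (ω' x)) = (∏ x ∈ T, v (ω' x)) * P := by
    intro T hT
    obtain ⟨hlab, _, hsv⟩ := hmem T hT
    have h1 : ∏ x ∈ T, (1 / Ll (ω' x)) = ∏ x ∈ T, (v (ω' x) * c (ω' x)) :=
      prod_congr rfl (fun x _ => m4_Ll_split (ω' x))
    rw [h1, prod_mul_distrib, m4_prod_label J ω' T hlab c, hsv]
  rw [sum_congr rfl hterm, ← sum_mul]
  -- bound the sum of the `v`-products
  have hsub : (univ : Finset (Finset α)).filter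
      (fun T => Valid F w J ω' T ∧ sv J ω' T = s) ⊆ A.powerset := by
    intro T hT
    rw [mem_powerset]
    exact (hmem T hT).2.1
  have hsum1 : ∑ T ∈ (univ : Finset (Finset α)).filter
      (fun T => Valid F w J ω' T ∧ sv J ω' T = s), ∏ x ∈ T, v (ω' x)
      ≤ ∑ T ∈ A.powerset, ∏ x ∈ T, v (ω' x) :=
    sum_le_sum_of_subset_of_nonneg hsub
      (fun T _ _ => prod_nonneg (fun x _ => hv0 _))
  have hsum2 : ∑ T ∈ A.powerset, ∏ x ∈ T, v (ω' x) ≤ Real.exp (∑ x ∈ A, v (ω' x)) := by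
    rw [← prod_one_add]
    exact Real.prod_one_add_le_exp_sum A (fun x => hv0 (ω' x))
  have hsum3 : ∑ x ∈ A, v (ω' x) ≤ (tot : ℝ) := by
    have hmaps : ∀ x ∈ A, ω' x ∈ range J := by
      intro x hx
      rw [hA, mem_filter] at hx
      simpa using hx.2.1
    rw [← sum_fiberwise_of_maps_to' hmaps v]
    have hj : ∀ j ∈ range J, ∑ x ∈ A with ω' x = j, v j ≤ (tot : ℝ) * (1 / 2 ^ (j + 1)) := by
      intro j _
      rw [sum_const, nsmul_eq_mul]
      have hcard : (A.filter (fun x => ω' x = j)).card ≤ Dd j * t j := by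
        refine le_trans (card_le_card ?_) (m4_card_Cst_le (w χ) χ j (t j))
        intro x hx
        rw [mem_filter, hA, mem_filter] at hx
        obtain ⟨⟨_, _, h2⟩, h3⟩ := hx
        rw [h3] at h2
        exact h2
      have htj : t j ≤ tot := m4_tOf_le s j
      have hD : (0 : ℝ) < (Dd j : ℝ) := by
        unfold Dd; positivity
      have hcard' : ((A.filter (fun x => ω' x = j)).card : ℝ) ≤ (Dd j : ℝ) * (tot : ℝ) := by
        have : (A.filter (fun x => ω' x = j)).card ≤ Dd j * tot :=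
          le_trans hcard (Nat.mul_le_mul_left _ htj)
        exact_mod_cast this
      calc ((A.filter (fun x => ω' x = j)).card : ℝ) * v j
          ≤ ((Dd j : ℝ) * (tot : ℝ)) * v j := mul_le_mul_of_nonneg_right hcard' (hv0 j)
        _ = (tot : ℝ) * (1 / 2 ^ (j + 1)) := by
            rw [hv]; field_simp
    calc ∑ j ∈ range J, ∑ x ∈ A with ω' x = j, v j
        ≤ ∑ j ∈ range J, (tot : ℝ) * (1 / 2 ^ (j + 1)) := sum_le_sum hj
      _ = (tot : ℝ) * (1 - 1 / 2 ^ J) := by rw [← mul_sum, m4_geom]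
      _ ≤ (tot : ℝ) * 1 := by
          refine mul_le_mul_of_nonneg_left ?_ (Nat.cast_nonneg _)
          have : (0 : ℝ) ≤ 1 / 2 ^ J := by positivity
          linarith
      _ = (tot : ℝ) := mul_one _
  have hsum4 : Real.exp (∑ x ∈ A, v (ω' x)) ≤ (3 : ℝ) ^ tot := by
    calc Real.exp (∑ x ∈ A, v (ω' x)) ≤ Real.exp (tot : ℝ) := Real.exp_le_exp.mpr hsum3
      _ = Real.exp 1 ^ tot := (Real.exp_one_pow tot).symm
      _ ≤ (3 : ℝ) ^ tot :=
          pow_le_pow_left₀ (Real.exp_pos 1).le Real.exp_one_lt_three.le tot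
  have hRHS : ∏ j : Fin J, ((3 / 256 : ℝ) / 2 ^ (j : ℕ)) ^ (s j) = (3 : ℝ) ^ tot * P := by
    rw [hP, htot, ← prod_pow_eq_pow_sum, ← prod_mul_distrib]
    refine prod_congr rfl ?_
    intro j _
    rw [← mul_pow, hc]
    congr 1
    ring
  rw [hRHS]
  exact mul_le_mul_of_nonneg_right (le_trans hsum1 (le_trans hsum2 hsum4)) hP0

end Crest.Agent.S0071Aux
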