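import Crest.Agent.S0071Aux.Defs

/-! Task M5 of the S0071 board (helper38): the geometric sum over the profile vectors `s`. -/

set_option autoImplicit false

namespace Crest.Agent.S0071Aux

open Finset

variable {α : Type} [Fintype α] [DecidableEq α]

/-- a truncated geometric series with ratio `θ ≤ 1/2` is at most `1 + 2 θ`. -/
lemma m5_geom_le (θ : ℝ) (h0 : 0 ≤ θ) (h1 : θ ≤ 1 / 2) (n : ℕ) :
    ∑ k ∈ range (n + 1), θ ^ k ≤ 1 + 2 * θ := by
  have key : ∀ m : ℕ, ∑ k ∈ range (m + 1), θ ^ k ≤ 1 + 2 * θ - 2 * θ ^ (m + 1) := by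
    intro m
    induction m with
    | zero => simp
    | succ m ih =>
      rw [Finset.sum_range_succ]
      have hp : 0 ≤ θ ^ (m + 1) := pow_nonneg h0 _
      have : θ ^ (m + 1 + 1) = θ ^ (m + 1) * θ := pow_succ _ _
      have h2 : θ ^ (m + 1) * θ ≤ θ ^ (m + 1) * (1 / 2) := mul_le_mul_of_nonneg_left h1 hp
      nlinarith
  have := key n
  have hp : 0 ≤ θ ^ (n + 1) := pow_nonneg h0 _
  linarith

/-- the total mass `∑_j 2 θ_j` is at most `3/64`. -/
lemma m5_sum_theta (J : ℕ) :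
    ∑ j : Fin J, 2 * ((3 / 256 : ℝ) / 2 ^ (j : ℕ)) ≤ 3 / 64 := by
  have h1 : ∑ j : Fin J, 2 * ((3 / 256 : ℝ) / 2 ^ (j : ℕ))
      = ∑ j ∈ range J, 2 * ((3 / 256 : ℝ) / 2 ^ j) :=
    Fin.sum_univ_eq_sum_range (fun j => 2 * ((3 / 256 : ℝ) / 2 ^ j)) J
  rw [h1]
  have h2 : ∑ j ∈ range J, 2 * ((3 / 256 : ℝ) / 2 ^ j)
      = (3 / 128 : ℝ) * ∑ j ∈ range J, (1 / (2 : ℝ)) ^ j := by
    rw [Finset.mul_sum]
    refine Finset.sum_congr rfl fun j _ => ?_
    rw [one_div, inv_pow]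
    ring
  rw [h2]
  have h3 := sum_geometric_two_le J
  linarith

open Classical in
/-- M5 -/
lemma sum_over_s (J n : ℕ) :
    ∑ s ∈ (Fintype.piFinset (fun _ : Fin J => range (n + 1))).filter (fun s => s ≠ 0),
        ∏ j : Fin J, ((3 / 256 : ℝ) / 2 ^ (j : ℕ)) ^ (s j) ≤ 1 / 4 := by
  set θ : Fin J → ℝ := fun j => (3 / 256 : ℝ) / 2 ^ (j : ℕ) with hθ
  have hθ0 : ∀ j, 0 ≤ θ j := fun j => by positivity
  have hθ1 : ∀ j, θ j ≤ 1 / 2 := by
    intro j
    have h2 : (1 : ℝ) ≤ 2 ^ (j : ℕ) := one_le_pow₀ (by norm_num)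
    have : θ j ≤ 3 / 256 := by
      simp only [hθ]
      exact div_le_self (by norm_num) h2
    linarith
  -- the full sum factorises
  have hfull : ∑ s ∈ Fintype.piFinset (fun _ : Fin J => range (n + 1)), ∏ j : Fin J, θ j ^ (s j)
      = ∏ j : Fin J, ∑ k ∈ range (n + 1), θ j ^ k :=
    (Finset.prod_univ_sum (fun _ : Fin J => range (n + 1)) (fun j k => θ j ^ k)).symm
  -- bound of the product
  have hprod : ∏ j : Fin J, ∑ k ∈ range (n + 1), θ j ^ k ≤ 64 / 61 := by
    calc ∏ j : Fin J, ∑ k ∈ range (n + 1), θ j ^ k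
        ≤ ∏ j : Fin J, Real.exp (2 * θ j) := by
          refine Finset.prod_le_prod (fun j _ => Finset.sum_nonneg fun k _ => pow_nonneg (hθ0 j) k)
            fun j _ => ?_
          have h1 := m5_geom_le (θ j) (hθ0 j) (hθ1 j) n
          have h2 := Real.add_one_le_exp (2 * θ j)
          linarith
      _ = Real.exp (∑ j : Fin J, 2 * θ j) := (Real.exp_sum _ _).symm
      _ ≤ Real.exp (3 / 64) := Real.exp_le_exp.mpr (m5_sum_theta J)
      _ ≤ 1 / (1 - 3 / 64) :=
          Real.exp_bound_div_one_sub_of_interval (by norm_num) (by norm_num)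
      _ = 64 / 61 := by norm_num
  -- split off the term `s = 0`
  have hmem : (0 : Fin J → ℕ) ∈ Fintype.piFinset (fun _ : Fin J => range (n + 1)) := by
    simp [Fintype.mem_piFinset]
  have hsplit : ∑ s ∈ Fintype.piFinset (fun _ : Fin J => range (n + 1)), ∏ j : Fin J, θ j ^ (s j)
      = ∑ s ∈ (Fintype.piFinset (fun _ : Fin J => range (n + 1))).filter (fun s => s ≠ 0),
          ∏ j : Fin J, θ j ^ (s j) + 1 := by
    rw [← Finset.sum_filter_add_sum_filter_not (Fintype.piFinset (fun _ : Fin J => range (n + 1)))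
      (fun s => s ≠ 0)]
    congr 1
    have : (Fintype.piFinset (fun _ : Fin J => range (n + 1))).filter (fun s => ¬ s ≠ 0)
        = {0} := by
      ext s
      simp only [Finset.mem_filter, not_not, Finset.mem_singleton]
      constructor
      · exact fun h => h.2
      · rintro rfl
        exact ⟨hmem, rfl⟩
    rw [this]
    simp
  have : ∑ s ∈ (Fintype.piFinset (fun _ : Fin J => range (n + 1))).filter (fun s => s ≠ 0),
      ∏ j : Fin J, θ j ^ (s j) ≤ 64 / 61 - 1 := by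
    have := hfull ▸ hprod
    linarith [hsplit]
  calc _ ≤ (64 / 61 - 1 : ℝ) := this
    _ ≤ 1 / 4 := by norm_num

end Crest.Agent.S0071Aux
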