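import Crest.Agent.S0071Aux.Defs
import Crest.Agent.S0071Aux.M5

/-! Backup of task M45 of the S0071 board (helper56): `sum_valid` with the statement of M4 as a
hypothesis. -/

set_option autoImplicit false

namespace Crest.Agent.S0071Aux

open Finset

variable {α : Type} [Fintype α] [DecidableEq α]

open Classical in
/-- M45 (backup), from the statement of M4 (hypothesis `hM4`) and M5. -/
lemma sum_valid_b56 (F : Finset (Finset α)) (w : Finset α → α → ℝ) (J : ℕ) (ω' : α → ℕ)
    (hM4 : ∀ s : Fin J → ℕ,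
      ∑ T ∈ (univ : Finset (Finset α)).filter (fun T => Valid F w J ω' T ∧ sv J ω' T = s),
        ∏ x ∈ T, (1 / Ll (ω' x))
      ≤ ∏ j : Fin J, ((3 / 256 : ℝ) / 2 ^ (j : ℕ)) ^ (s j)) :
    ∑ T ∈ (univ : Finset (Finset α)).filter (fun T => Valid F w J ω' T),
        ∏ x ∈ T, (1 / Ll (ω' x)) ≤ 1 / 4 := by
  have hmaps : ∀ T ∈ (univ : Finset (Finset α)).filter (fun T => Valid F w J ω' T),
      sv J ω' T ∈ (Fintype.piFinset (fun _ : Fin J => range (Fintype.card α + 1))).filter
        (fun s => s ≠ 0) := by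
    intro T hT
    rw [mem_filter] at hT
    obtain ⟨⟨x, hx⟩, _, h3⟩ := hT.2
    rw [mem_filter, Fintype.mem_piFinset]
    refine ⟨fun j => ?_, fun h0 => ?_⟩
    · rw [mem_range, Nat.lt_succ_iff]
      exact (card_le_card (filter_subset _ _)).trans (card_le_univ T)
    · have h1 : sv J ω' T ⟨ω' x, (h3 x hx).1⟩ = 0 := by rw [h0]; rfl
      have h2 : x ∈ T.filter (fun y => ω' y = ω' x) := mem_filter.mpr ⟨hx, rfl⟩
      have h4 : (T.filter (fun y => ω' y = ω' x)).card = 0 := h1
      rw [card_eq_zero] at h4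
      rw [h4] at h2
      exact absurd h2 (notMem_empty x)
  rw [← sum_fiberwise_of_maps_to hmaps]
  refine le_trans (sum_le_sum (fun s _ => ?_)) (sum_over_s J (Fintype.card α))
  rw [filter_filter]
  exact hM4 s

end Crest.Agent.S0071Aux
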