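import Crest.Agent.S0071Aux.M1
import Crest.Agent.S0071Aux.M3
import Crest.Agent.S0071Aux.M4
import Crest.Agent.S0071Aux.M45b56

set_option autoImplicit false

namespace Crest.Agent.S0071Aux

open Finset

variable {α : Type} [Fintype α] [DecidableEq α]

open Classical in
/-- MC : from M3, M45, M1 -/
lemma cost_bound (F : Finset (Finset α)) (w : Finset α → α → ℝ) (J : ℕ) (p : ℕ → ℝ) (q : ℝ)
    (hq : 0 ≤ q) (hp0 : ∀ j, 0 ≤ p j)
    (hp : ∀ j < J, p j = Ll j * q) (hsum : ∑ j ∈ range (J + 1), p j = 1) :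
    ∑ ω ∈ Om α J, Pw p ω *
      ∑ ω' ∈ (Om α J).filter (fun ω' => (∀ x, ω' x ≤ ω x) ∧ Valid F w J ω' (Td ω ω')),
        q ^ (Td ω ω').card ≤ 1 / 4 := by
  have hPw0 : ∀ ω : α → ℕ, 0 ≤ Pw p ω := fun ω => Finset.prod_nonneg (fun x _ => hp0 _)
  have htot : ∑ ω ∈ Om α J, Pw p ω = 1 := by
    simpa using sum_Pw_prod J p hsum (∅ : Finset α) (fun _ => 1)
  have key : ∀ ω' ∈ Om α J,
      ∑ ω ∈ (Om α J).filter (fun ω => (∀ x, ω' x ≤ ω x) ∧ Valid F w J ω' (Td ω ω')),
        Pw p ω * q ^ (Td ω ω').card ≤ Pw p ω' * (1 / 4) := by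
    intro ω' hω'
    have h1 : ∑ ω ∈ (Om α J).filter (fun ω => (∀ x, ω' x ≤ ω x) ∧ Valid F w J ω' (Td ω ω')),
          Pw p ω * q ^ (Td ω ω').card
        = ∑ T ∈ (univ : Finset (Finset α)).filter (fun T => Valid F w J ω' T),
            ∑ ω ∈ (Om α J).filter (fun ω => (∀ x, ω' x ≤ ω x) ∧ Td ω ω' = T),
              Pw p ω * q ^ T.card := by
      rw [← Finset.sum_fiberwise_of_maps_to (g := fun ω => Td ω ω')
        (t := (univ : Finset (Finset α)).filter (fun T => Valid F w J ω' T))]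
      · refine Finset.sum_congr rfl fun T hT => ?_
        rw [Finset.filter_filter]
        refine Finset.sum_congr ?_ ?_
        · ext ω
          simp only [mem_filter]
          constructor
          · rintro ⟨h1, ⟨h2, _⟩, h4⟩
            exact ⟨h1, h2, h4⟩
          · rintro ⟨h1, h2, h4⟩
            refine ⟨h1, ⟨h2, ?_⟩, h4⟩
            rw [h4]
            exact (mem_filter.1 hT).2
        · intro ω hω
          rw [(mem_filter.1 hω).2.2]
      · intro ω hω
        simp only [mem_filter] at hω ⊢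
        exact ⟨mem_univ _, hω.2.2⟩
    rw [h1]
    calc ∑ T ∈ (univ : Finset (Finset α)).filter (fun T => Valid F w J ω' T),
            ∑ ω ∈ (Om α J).filter (fun ω => (∀ x, ω' x ≤ ω x) ∧ Td ω ω' = T),
              Pw p ω * q ^ T.card
        ≤ ∑ T ∈ (univ : Finset (Finset α)).filter (fun T => Valid F w J ω' T),
            Pw p ω' * ∏ x ∈ T, (1 / Ll (ω' x)) := by
          refine sum_le_sum fun T hT => change_var J p q hq hp0 hp hsum ω' hω' T
            (fun x hx => ((mem_filter.1 hT).2.2.2 x hx).1)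
      _ = Pw p ω' * ∑ T ∈ (univ : Finset (Finset α)).filter (fun T => Valid F w J ω' T),
            ∏ x ∈ T, (1 / Ll (ω' x)) := by rw [mul_sum]
      _ ≤ Pw p ω' * (1 / 4) := mul_le_mul_of_nonneg_left (sum_valid_b56 F w J ω' (sum_fixed_s F w J ω')) (hPw0 ω')
  calc ∑ ω ∈ Om α J, Pw p ω *
        ∑ ω' ∈ (Om α J).filter (fun ω' => (∀ x, ω' x ≤ ω x) ∧ Valid F w J ω' (Td ω ω')),
          q ^ (Td ω ω').card
      = ∑ ω ∈ Om α J, ∑ ω' ∈ Om α J,
          if ((∀ x, ω' x ≤ ω x) ∧ Valid F w J ω' (Td ω ω')) then Pw p ω * q ^ (Td ω ω').card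
          else 0 := by
        refine sum_congr rfl fun ω _ => ?_
        rw [mul_sum, sum_filter]
    _ = ∑ ω' ∈ Om α J, ∑ ω ∈ Om α J,
          if ((∀ x, ω' x ≤ ω x) ∧ Valid F w J ω' (Td ω ω')) then Pw p ω * q ^ (Td ω ω').card
          else 0 := sum_comm
    _ = ∑ ω' ∈ Om α J,
          ∑ ω ∈ (Om α J).filter (fun ω => (∀ x, ω' x ≤ ω x) ∧ Valid F w J ω' (Td ω ω')),
            Pw p ω * q ^ (Td ω ω').card := by
        refine sum_congr rfl fun ω' _ => ?_
        rw [sum_filter]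
    _ ≤ ∑ ω' ∈ Om α J, Pw p ω' * (1 / 4) := sum_le_sum key
    _ = 1 / 4 := by rw [← sum_mul, htot, one_mul]

end Crest.Agent.S0071Aux
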