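import Mathlib

/-! Definitions for S0071 ("slack quotas", team note 515, simplified version).  helper23. -/

set_option autoImplicit false

namespace Crest.Agent.S0071Aux

open Finset

variable {α : Type} [Fintype α] [DecidableEq α]

/-- label space: all `ω : α → ℕ` with `ω x ≤ J`. -/
def Om (α : Type) [Fintype α] [DecidableEq α] (J : ℕ) : Finset (α → ℕ) :=
  Fintype.piFinset (fun _ => range (J + 1))

/-- product weight of a labelling -/
def Pw (p : ℕ → ℝ) (ω : α → ℕ) : ℝ := ∏ x, p (ω x)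

/-- number of elements of `C` with label `> j` -/
def Nn (ω : α → ℕ) (j : ℕ) (C : Finset α) : ℕ := (C.filter (fun x => j < ω x)).card

/-- `D_j = 1/δ_j` -/
def Dd (j : ℕ) : ℕ := 2 ^ (j + 3)

/-- `L_j` -/
noncomputable def Ll (j : ℕ) : ℝ := 4096 * 8 ^ j

/-- level sets of a weight on `H` (a chain) -/
noncomputable def Lev (w : α → ℝ) (H : Finset α) (y : α) : Finset α := H.filter (fun x => w y ≤ w x)

/-- `H` meets all quotas with slack `t` -/
def InQ (w : Finset α → α → ℝ) (J : ℕ) (ω : α → ℕ) (t : ℕ → ℕ) (H : Finset α) : Prop :=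
  ∀ j < J, ∀ y ∈ H,
    Dd j * (Nn ω j (Lev (w H) H y) + t j) ≤ 2 * (Lev (w H) H y).card ∨
    Dd j * Nn ω j (Lev (w H) H y) ≤ (Lev (w H) H y).card

open Classical in
/-- canonical member of `Q(ω,t)` -/
noncomputable def chi (F : Finset (Finset α)) (w : Finset α → α → ℝ) (J : ℕ) (ω : α → ℕ)
    (t : ℕ → ℕ) : Finset α :=
  if h : ∃ H ∈ F, InQ w J ω t H then h.choose else ∅

open Classical in
/-- union of the level sets of size `< D_j * tj` -/
noncomputable def Cst (w : α → ℝ) (H : Finset α) (j tj : ℕ) : Finset α :=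
  H.filter (fun x => ∃ y ∈ H, w y ≤ w x ∧ (Lev w H y).card < Dd j * tj)

/-- `t_j = #{x ∈ T : ω' x ≤ j}` -/
def tv (ω' : α → ℕ) (T : Finset α) (j : ℕ) : ℕ := (T.filter (fun x => ω' x ≤ j)).card

/-- `s_j = #{x ∈ T : ω' x = j}` -/
def sv (J : ℕ) (ω' : α → ℕ) (T : Finset α) : Fin J → ℕ :=
  fun j => (T.filter (fun x => ω' x = j.val)).card

/-- `t` from `s` -/
def tOf {J : ℕ} (s : Fin J → ℕ) (j : ℕ) : ℕ :=
  ∑ i ∈ (univ : Finset (Fin J)).filter (fun i : Fin J => i.val ≤ j), s i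

/-- the promoted set -/
def Td (ω ω' : α → ℕ) : Finset α := univ.filter (fun x => ω' x < ω x)

/-- `T` is a valid repair set for the promoted labelling `ω'` -/
def Valid (F : Finset (Finset α)) (w : Finset α → α → ℝ) (J : ℕ) (ω' : α → ℕ) (T : Finset α) :
    Prop :=
  T.Nonempty ∧ (∃ H ∈ F, InQ w J ω' (tv ω' T) H) ∧
    ∀ x ∈ T, ω' x < J ∧
      x ∈ Cst (w (chi F w J ω' (tv ω' T))) (chi F w J ω' (tv ω' T)) (ω' x) (tv ω' T (ω' x))

/-- the weights `w_H(x) = ∑_{x ∈ I ⊆ H} g(I)/|I|` -/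
noncomputable def wH (g : Finset α → ℝ) (H : Finset α) (x : α) : ℝ :=
  ∑ I ∈ H.powerset with x ∈ I, g I / I.card

/-- mass of the nonempty sets with average label `≤ 1` -/
noncomputable def Phi (g : Finset α → ℝ) (ω : α → ℕ) : ℝ :=
  ∑ I : Finset α with (I.Nonempty ∧ ∑ x ∈ I, ω x ≤ I.card), g I

end Crest.Agent.S0071Aux
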