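import Crest.Agent.S0071Aux.Defs

/-!
# Final assembly of S0071 from the board lemmas M0, M1, M2, MC, M8, M9 (taken as hypotheses)

helper89.  The six hypotheses are verbatim the statements of the team board `s0071_tasks`.
-/

set_option autoImplicit false

namespace Crest.Agent.S0071Aux

open Finset

variable {α : Type} [Fintype α] [DecidableEq α]

/-- sum over an image is at most the sum over the domain (nonnegative terms) -/
lemma f89_sum_image_le {ι κ : Type*} [DecidableEq κ] (s : Finset ι) (f : ι → κ) (h : κ → ℝ)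
    (hh : ∀ k, 0 ≤ h k) : ∑ k ∈ s.image f, h k ≤ ∑ i ∈ s, h (f i) := by
  rw [← sum_fiberwise_of_maps_to (s := s) (t := s.image f) (g := f)
    (fun i hi => mem_image_of_mem f hi) (fun i => h (f i))]
  apply sum_le_sum
  intro k hk
  obtain ⟨i, hi, rfl⟩ := mem_image.1 hk
  have hmem : i ∈ s.filter (fun j => f j = f i) := mem_filter.2 ⟨hi, rfl⟩
  exact single_le_sum (f := fun j => h (f j)) (fun j _ => hh (f j)) hmem

open Classical in
theorem final89
    (hM0 : ∀ (q : ℝ) (_ : 0 < q), ∃ (J : ℕ) (p : ℕ → ℝ), (∀ j, 0 ≤ p j) ∧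
      (∀ j < J, p j = Ll j * q) ∧ (∀ j ≤ J, p j ≤ Ll j * q) ∧ ∑ j ∈ range (J + 1), p j = 1)
    (hM1 : ∀ (J : ℕ) (p : ℕ → ℝ) (_ : ∑ j ∈ range (J + 1), p j = 1) (I : Finset α)
      (z : ℕ → ℝ),
      ∑ ω ∈ Om α J, Pw p ω * ∏ x ∈ I, z (ω x) = (∑ j ∈ range (J + 1), p j * z j) ^ I.card)
    (hM2 : ∀ (F : Finset (Finset α)) (w : Finset α → α → ℝ) (J : ℕ) (ω : α → ℕ)
      (_ : ω ∈ Om α J) (_ : ¬ ∃ H ∈ F, InQ w J ω 0 H) (S : Finset α) (_ : S ∈ F),
      ∃ ω' ∈ Om α J, (∀ x, ω' x ≤ ω x) ∧ Td ω ω' ⊆ S ∧ Valid F w J ω' (Td ω ω'))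
    (hMC : ∀ (F : Finset (Finset α)) (w : Finset α → α → ℝ) (J : ℕ) (p : ℕ → ℝ) (q : ℝ)
      (_ : 0 ≤ q) (_ : ∀ j, 0 ≤ p j)
      (_ : ∀ j < J, p j = Ll j * q) (_ : ∑ j ∈ range (J + 1), p j = 1),
      ∑ ω ∈ Om α J, Pw p ω *
        ∑ ω' ∈ (Om α J).filter (fun ω' => (∀ x, ω' x ≤ ω x) ∧ Valid F w J ω' (Td ω ω')),
          q ^ (Td ω ω').card ≤ 1 / 4)
    (hM8 : ∀ (F : Finset (Finset α)) (g : Finset α → ℝ) (_ : ∀ S, 0 ≤ g S)
      (_ : ∀ H ∈ F, 1 ≤ ∑ S ∈ H.powerset, g S) (J : ℕ) (ω : α → ℕ) (_ : ω ∈ Om α J)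
      (_ : ∃ H ∈ F, InQ (wH g) J ω 0 H), (1 - g ∅) / 2 ≤ Phi g ω)
    (hM9 : ∀ (J : ℕ) (p : ℕ → ℝ) (q : ℝ) (_ : 0 ≤ q) (_ : ∀ j, 0 ≤ p j)
      (_ : ∀ j ≤ J, p j ≤ Ll j * q) (_ : ∑ j ∈ range (J + 1), p j = 1)
      (g : Finset α → ℝ) (_ : ∀ S, 0 ≤ g S),
      ∑ ω ∈ Om α J, Pw p ω * Phi g ω
        ≤ ∑ I ∈ (univ : Finset (Finset α)).filter Finset.Nonempty, g I * (131072 * q) ^ I.card)
    (F : Finset (Finset α)) (hempty : ∅ ∉ F)
    (r : ℝ) (hr0 : 0 ≤ r)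
    (g : Finset α → ℝ) (hg : ∀ S : Finset α, 0 ≤ g S ∧ g S ≤ 1)
    (hcov : ∀ H ∈ F, 1 ≤ ∑ S ∈ H.powerset, g S)
    (hcost : ∑ S : Finset α, g S * r ^ S.card ≤ 1 / 2) :
    ∃ G : Finset (Finset α), (∀ H ∈ F, ∃ S ∈ G, S ⊆ H) ∧
      ∑ S ∈ G, (r / (25 * 512 ^ 4)) ^ S.card ≤ 1 / 2 := by
  have hg0 : ∀ S, 0 ≤ g S := fun S => (hg S).1
  rcases hr0.eq_or_lt with h0 | hpos
  · -- r = 0
    refine ⟨F, fun H hH => ⟨H, hH, Subset.refl _⟩, ?_⟩
    have : ∑ S ∈ F, (r / (25 * 512 ^ 4)) ^ S.card = 0 := by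
      apply sum_eq_zero
      intro S hS
      have hne : S.card ≠ 0 := by
        intro hc
        exact hempty (by rw [card_eq_zero.1 hc] at hS; exact hS)
      rw [← h0]; simp [hne]
    rw [this]; norm_num
  set q : ℝ := r / (25 * 512 ^ 4) with hq
  have hqpos : 0 < q := by positivity
  by_contra hcon
  push_neg at hcon
  obtain ⟨J, p, hp0, hp, hple, hsum⟩ := hM0 q hqpos
  set w := wH g with hw
  set inner : (α → ℕ) → ℝ := fun ω =>
    ∑ ω' ∈ (Om α J).filter (fun ω' => (∀ x, ω' x ≤ ω x) ∧ Valid F w J ω' (Td ω ω')),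
          q ^ (Td ω ω').card with hinner
  have hinner0 : ∀ ω, 0 ≤ inner ω := fun ω => sum_nonneg (fun _ _ => by positivity)
  have hPw0 : ∀ ω : α → ℕ, 0 ≤ Pw p ω := fun ω => prod_nonneg (fun x _ => hp0 _)
  -- Claim A
  have hA : ∀ ω ∈ Om α J, (¬ ∃ H ∈ F, InQ w J ω 0 H) → 1 / 2 < inner ω := by
    intro ω hω hbad
    set s := (Om α J).filter (fun ω' => (∀ x, ω' x ≤ ω x) ∧ Valid F w J ω' (Td ω ω')) with hs
    have hcovG : ∀ H ∈ F, ∃ S ∈ s.image (fun ω' => Td ω ω'), S ⊆ H := by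
      intro H hH
      obtain ⟨ω', hω', hle, hsub, hval⟩ := hM2 F w J ω hω hbad H hH
      exact ⟨Td ω ω', mem_image.2 ⟨ω', mem_filter.2 ⟨hω', hle, hval⟩, rfl⟩, hsub⟩
    have h1 := hcon _ hcovG
    have h2 := f89_sum_image_le s (fun ω' => Td ω ω') (fun T => q ^ T.card)
      (fun T => by positivity)
    exact lt_of_lt_of_le h1 h2
  -- total mass one
  have hB : ∑ ω ∈ Om α J, Pw p ω = 1 := by
    have := hM1 J p hsum ∅ (fun _ => 1)
    simpa using this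
  have hC := hMC F w J p q hqpos.le hp0 hp hsum
  -- mass of the bad labellings
  set bad := (Om α J).filter (fun ω => ¬ ∃ H ∈ F, InQ w J ω 0 H) with hbadset
  set good := (Om α J).filter (fun ω => ∃ H ∈ F, InQ w J ω 0 H) with hgoodset
  have hsplit : ∑ ω ∈ good, Pw p ω + ∑ ω ∈ bad, Pw p ω = 1 := by
    rw [← hB]
    exact sum_filter_add_sum_filter_not _ _ _
  have hbadmass : ∑ ω ∈ bad, Pw p ω * (1 / 2) ≤ 1 / 4 := by
    calc ∑ ω ∈ bad, Pw p ω * (1 / 2) ≤ ∑ ω ∈ bad, Pw p ω * inner ω := by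
          apply sum_le_sum
          intro ω hω
          have := hA ω (mem_filter.1 hω).1 (mem_filter.1 hω).2
          exact mul_le_mul_of_nonneg_left this.le (hPw0 ω)
      _ ≤ ∑ ω ∈ Om α J, Pw p ω * inner ω :=
          sum_le_sum_of_subset_of_nonneg (filter_subset _ _)
            (fun ω _ _ => mul_nonneg (hPw0 ω) (hinner0 ω))
      _ ≤ 1 / 4 := hC
  rw [← sum_mul] at hbadmass
  have hgoodmass : 1 / 2 ≤ ∑ ω ∈ good, Pw p ω := by linarith
  have hPhi0 : ∀ ω : α → ℕ, 0 ≤ Phi g ω := fun ω => sum_nonneg (fun I _ => hg0 I)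
  have hge : (1 / 2) * ((1 - g ∅) / 2) ≤ ∑ ω ∈ Om α J, Pw p ω * Phi g ω := by
    have h1g : 0 ≤ (1 - g ∅) / 2 := by have := (hg ∅).2; linarith
    calc (1 / 2) * ((1 - g ∅) / 2) ≤ (∑ ω ∈ good, Pw p ω) * ((1 - g ∅) / 2) :=
          mul_le_mul_of_nonneg_right hgoodmass h1g
      _ = ∑ ω ∈ good, Pw p ω * ((1 - g ∅) / 2) := by rw [sum_mul]
      _ ≤ ∑ ω ∈ good, Pw p ω * Phi g ω := by
          apply sum_le_sum
          intro ω hω
          exact mul_le_mul_of_nonneg_left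
            (hM8 F g hg0 hcov J ω (mem_filter.1 hω).1 (mem_filter.1 hω).2) (hPw0 ω)
      _ ≤ ∑ ω ∈ Om α J, Pw p ω * Phi g ω :=
          sum_le_sum_of_subset_of_nonneg (filter_subset _ _)
            (fun ω _ _ => mul_nonneg (hPw0 ω) (hPhi0 ω))
  have hle := hM9 J p q hqpos.le hp0 hple hsum g hg0
  -- the right-hand side is tiny
  have hterm : ∀ I ∈ (univ : Finset (Finset α)).filter Finset.Nonempty,
      g I * (131072 * q) ^ I.card ≤ (1 / 13107200) * (g I * r ^ I.card) := by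
    intro I hI
    have hIne : I.card ≠ 0 := by
      have := (mem_filter.1 hI).2
      exact (card_pos.2 this).ne'
    have e1 : (131072 * q) = (1 / 13107200) * r := by
      rw [hq]; ring
    have e2 : ((1 / 13107200 : ℝ)) ^ I.card ≤ 1 / 13107200 :=
      pow_le_of_le_one (by norm_num) (by norm_num) hIne
    rw [e1, mul_pow]
    have hr' : 0 ≤ g I * r ^ I.card := mul_nonneg (hg0 I) (by positivity)
    calc g I * ((1 / 13107200) ^ I.card * r ^ I.card)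
        = (1 / 13107200) ^ I.card * (g I * r ^ I.card) := by ring
      _ ≤ (1 / 13107200) * (g I * r ^ I.card) := mul_le_mul_of_nonneg_right e2 hr'
  have hsum2 : ∑ I ∈ (univ : Finset (Finset α)).filter Finset.Nonempty, g I * r ^ I.card
      ≤ 1 / 2 := by
    refine le_trans ?_ hcost
    exact sum_le_sum_of_subset_of_nonneg (filter_subset _ _)
      (fun I _ _ => mul_nonneg (hg0 I) (by positivity))
  have hgempty : g ∅ ≤ 1 / 2 := by
    refine le_trans ?_ hcost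
    have := single_le_sum (f := fun S : Finset α => g S * r ^ S.card)
      (fun I _ => mul_nonneg (hg0 I) (by positivity)) (mem_univ (∅ : Finset α))
    simpa using this
  have hfin : ∑ I ∈ (univ : Finset (Finset α)).filter Finset.Nonempty,
      g I * (131072 * q) ^ I.card ≤ (1 / 13107200) * (1 / 2) := by
    calc _ ≤ ∑ I ∈ (univ : Finset (Finset α)).filter Finset.Nonempty,
          (1 / 13107200) * (g I * r ^ I.card) := sum_le_sum hterm
      _ = (1 / 13107200) * ∑ I ∈ (univ : Finset (Finset α)).filter Finset.Nonempty,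
          g I * r ^ I.card := by rw [mul_sum]
      _ ≤ (1 / 13107200) * (1 / 2) := by
          apply mul_le_mul_of_nonneg_left hsum2 (by norm_num)
  linarith

end Crest.Agent.S0071Aux
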