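import Crest.Agent.S0071Aux.Defs

/-! Numerical end of task M4 of the S0071 board (helper66). -/

set_option autoImplicit false

namespace Crest.Agent.S0071Aux

open Finset

/-- one level -/
lemma h66_one (j t s : ℕ) :
    ((Nat.choose (Dd j * t) s : ℝ) * (1 / Ll j) ^ s)
      ≤ Real.exp ((t : ℝ) / 2 ^ (j + 1)) * ((1 / 256 : ℝ) / 2 ^ j) ^ s := by
  have h1 : (Nat.choose (Dd j * t) s : ℝ) ≤ ((Dd j * t : ℕ) : ℝ) ^ s / (s.factorial : ℝ) :=
    Nat.choose_le_pow_div s (Dd j * t)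
  have hL : (0 : ℝ) < Ll j := by unfold Ll; positivity
  have h2 : ((t : ℝ) / 2 ^ (j + 1)) ^ s / (s.factorial : ℝ) ≤ Real.exp ((t : ℝ) / 2 ^ (j + 1)) :=
    Real.pow_div_factorial_le_exp _ (by positivity) s
  have h3 : ((Dd j * t : ℕ) : ℝ) ^ s / (s.factorial : ℝ) * (1 / Ll j) ^ s
      = (((t : ℝ) / 2 ^ (j + 1)) ^ s / (s.factorial : ℝ)) * ((1 / 256 : ℝ) / 2 ^ j) ^ s := by
    have : ((Dd j * t : ℕ) : ℝ) * (1 / Ll j) = ((t : ℝ) / 2 ^ (j + 1)) * ((1 / 256 : ℝ) / 2 ^ j) := by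
      unfold Dd Ll
      push_cast
      have h8 : (8 : ℝ) ^ j = 2 ^ j * 2 ^ j * 2 ^ j := by
        rw [← mul_pow, ← mul_pow]; norm_num
      rw [h8]
      have h2j : (2 : ℝ) ^ j ≠ 0 := by positivity
      field_simp
      ring
    calc ((Dd j * t : ℕ) : ℝ) ^ s / (s.factorial : ℝ) * (1 / Ll j) ^ s
        = (((Dd j * t : ℕ) : ℝ) * (1 / Ll j)) ^ s / (s.factorial : ℝ) := by
          rw [mul_pow]; ring
      _ = (((t : ℝ) / 2 ^ (j + 1)) * ((1 / 256 : ℝ) / 2 ^ j)) ^ s / (s.factorial : ℝ) := by rw [this]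
      _ = _ := by rw [mul_pow]; ring
  calc ((Nat.choose (Dd j * t) s : ℝ) * (1 / Ll j) ^ s)
      ≤ ((Dd j * t : ℕ) : ℝ) ^ s / (s.factorial : ℝ) * (1 / Ll j) ^ s := by
        apply mul_le_mul_of_nonneg_right h1; positivity
    _ = (((t : ℝ) / 2 ^ (j + 1)) ^ s / (s.factorial : ℝ)) * ((1 / 256 : ℝ) / 2 ^ j) ^ s := h3
    _ ≤ _ := by
        apply mul_le_mul_of_nonneg_right h2; positivity

lemma h66_tOf_le {J : ℕ} (s : Fin J → ℕ) (j : ℕ) : tOf s j ≤ ∑ i, s i := by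
  unfold tOf
  exact Finset.sum_le_sum_of_subset (Finset.filter_subset _ _)

lemma h66_geom (J : ℕ) : ∑ j : Fin J, (1 : ℝ) / 2 ^ ((j : ℕ) + 1) ≤ 1 := by
  rw [Fin.sum_univ_eq_sum_range (fun j => (1 : ℝ) / 2 ^ (j + 1)) J]
  have : ∀ n : ℕ, ∑ j ∈ range n, (1 : ℝ) / 2 ^ (j + 1) = 1 - 1 / 2 ^ n := by
    intro n
    induction n with
    | zero => simp
    | succ n ih =>
      rw [Finset.sum_range_succ, ih]
      have : (2 : ℝ) ^ n ≠ 0 := by positivity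
      field_simp
      ring
  rw [this]
  have : (0 : ℝ) ≤ 1 / 2 ^ J := by positivity
  linarith

/-- the numerical end of M4 -/
lemma h66_choose_prod {J : ℕ} (s : Fin J → ℕ) :
    ∏ j : Fin J, ((Nat.choose (Dd j * tOf s j) (s j) : ℝ) * (1 / Ll j) ^ (s j))
      ≤ ∏ j : Fin J, ((3 / 256 : ℝ) / 2 ^ (j : ℕ)) ^ (s j) := by
  set t : ℕ := ∑ i, s i with ht
  have hA : ∏ j : Fin J, ((Nat.choose (Dd j * tOf s j) (s j) : ℝ) * (1 / Ll j) ^ (s j))
      ≤ ∏ j : Fin J, (Real.exp ((tOf s j : ℝ) / 2 ^ ((j : ℕ) + 1))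
          * ((1 / 256 : ℝ) / 2 ^ (j : ℕ)) ^ (s j)) := by
    apply Finset.prod_le_prod
    · intro j _
      have hL : (0 : ℝ) < Ll j := by unfold Ll; positivity
      positivity
    · intro j _
      exact h66_one j (tOf s j) (s j)
  have hB : ∏ j : Fin J, Real.exp ((tOf s j : ℝ) / 2 ^ ((j : ℕ) + 1)) ≤ Real.exp (t : ℝ) := by
    rw [← Real.exp_sum]
    apply Real.exp_le_exp.mpr
    calc ∑ j : Fin J, (tOf s j : ℝ) / 2 ^ ((j : ℕ) + 1)
        ≤ ∑ j : Fin J, (t : ℝ) * (1 / 2 ^ ((j : ℕ) + 1)) := by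
          apply Finset.sum_le_sum
          intro j _
          have : (tOf s j : ℝ) ≤ (t : ℝ) := by exact_mod_cast h66_tOf_le s j
          rw [div_eq_mul_one_div]
          apply mul_le_mul_of_nonneg_right this; positivity
      _ = (t : ℝ) * ∑ j : Fin J, (1 : ℝ) / 2 ^ ((j : ℕ) + 1) := by rw [Finset.mul_sum]
      _ ≤ (t : ℝ) * 1 := by
          apply mul_le_mul_of_nonneg_left (h66_geom J); positivity
      _ = t := by ring
  have hC : Real.exp (t : ℝ) = ∏ j : Fin J, (Real.exp 1) ^ (s j) := by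
    rw [Finset.prod_pow_eq_pow_sum, ← ht, ← Real.exp_nat_mul]; ring_nf
  calc ∏ j : Fin J, ((Nat.choose (Dd j * tOf s j) (s j) : ℝ) * (1 / Ll j) ^ (s j))
      ≤ ∏ j : Fin J, (Real.exp ((tOf s j : ℝ) / 2 ^ ((j : ℕ) + 1))
          * ((1 / 256 : ℝ) / 2 ^ (j : ℕ)) ^ (s j)) := hA
    _ = (∏ j : Fin J, Real.exp ((tOf s j : ℝ) / 2 ^ ((j : ℕ) + 1)))
          * ∏ j : Fin J, ((1 / 256 : ℝ) / 2 ^ (j : ℕ)) ^ (s j) := Finset.prod_mul_distrib
    _ ≤ Real.exp (t : ℝ) * ∏ j : Fin J, ((1 / 256 : ℝ) / 2 ^ (j : ℕ)) ^ (s j) := by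
        apply mul_le_mul_of_nonneg_right hB
        apply Finset.prod_nonneg; intro j _; positivity
    _ = ∏ j : Fin J, ((Real.exp 1) ^ (s j) * ((1 / 256 : ℝ) / 2 ^ (j : ℕ)) ^ (s j)) := by
        rw [hC, Finset.prod_mul_distrib]
    _ ≤ ∏ j : Fin J, ((3 / 256 : ℝ) / 2 ^ (j : ℕ)) ^ (s j) := by
        apply Finset.prod_le_prod
        · intro j _; positivity
        · intro j _
          rw [← mul_pow]
          apply pow_le_pow_left₀ (by positivity)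
          have he : Real.exp 1 ≤ 3 := by
            have := Real.exp_one_lt_d9; linarith
          have h2 : (0 : ℝ) < 2 ^ (j : ℕ) := by positivity
          calc Real.exp 1 * ((1 / 256 : ℝ) / 2 ^ (j : ℕ))
              ≤ 3 * ((1 / 256 : ℝ) / 2 ^ (j : ℕ)) := by
                apply mul_le_mul_of_nonneg_right he; positivity
            _ = (3 / 256 : ℝ) / 2 ^ (j : ℕ) := by ring

end Crest.Agent.S0071Aux
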