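import Mathlib

/-!
# Layer-cake lemma for S0071 (step (iv) of the slack-quota proof, team note 515)

If a set `B` meets every level set `{x ∈ H : τ ≤ w x}` (`τ > 0`) of a nonnegative weight `w` in at most
a `c`-fraction of its points, then `w(H ∩ B) ≤ c * w(H)`.
-/

set_option autoImplicit false

namespace Crest.Agent.S0071Aux.H89

open Finset

theorem layer_cake_aux {α : Type*} [DecidableEq α] (B : Finset α) (c : ℝ) (hc : 0 ≤ c) :
    ∀ (n : ℕ) (H : Finset α) (w : α → ℝ), H.card = n → (∀ x ∈ H, 0 ≤ w x) →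
      (∀ τ : ℝ, 0 < τ → (((H.filter (fun x => τ ≤ w x)) ∩ B).card : ℝ)
          ≤ c * ((H.filter (fun x => τ ≤ w x)).card : ℝ)) →
      ∑ x ∈ H ∩ B, w x ≤ c * ∑ x ∈ H, w x := by
  intro n
  induction n using Nat.strong_induction_on with
  | _ n ih =>
    intro H w hcard hw h
    rcases H.eq_empty_or_nonempty with rfl | hne
    · simp
    obtain ⟨x0, hx0, hmin⟩ := H.exists_min_image w hne
    set m := w x0 with hm
    have hm0 : 0 ≤ m := hw x0 hx0
    set H' := H.filter (fun x => m < w x) with hH'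
    have hsub : H' ⊆ H := filter_subset _ _
    have hx0' : x0 ∉ H' := by simp [hH', hm]
    have hlt : H'.card < n := by
      rw [← hcard]
      exact card_lt_card ⟨hsub, fun hh => hx0' (hh hx0)⟩
    have hfil : ∀ τ : ℝ, 0 < τ →
        H'.filter (fun x => τ ≤ w x - m) = H.filter (fun x => τ + m ≤ w x) := by
      intro τ hτ
      ext x
      simp only [hH', mem_filter]
      constructor
      · rintro ⟨⟨hx, _⟩, h2⟩; exact ⟨hx, by linarith⟩
      · rintro ⟨hx, h2⟩; exact ⟨⟨hx, by linarith⟩, by linarith⟩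
    have ih' := ih H'.card hlt H' (fun x => w x - m) rfl
      (fun x hx => by
        have := (mem_filter.1 hx).2
        linarith)
      (fun τ hτ => by
        rw [hfil τ hτ]
        exact h (τ + m) (by linarith))
    -- sums over `H` versus `H'`
    have hzero : ∀ x ∈ H, x ∉ H' → w x - m = 0 := by
      intro x hx hx'
      have h1 : ¬ m < w x := fun hh => hx' (mem_filter.2 ⟨hx, hh⟩)
      have h2 : m ≤ w x := hmin x hx
      linarith
    have hS1 : ∑ x ∈ H, (w x - m) = ∑ x ∈ H', (w x - m) := by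
      symm
      apply sum_subset hsub
      intro x hx hx'
      exact hzero x hx hx'
    have hS2 : ∑ x ∈ H ∩ B, (w x - m) = ∑ x ∈ H' ∩ B, (w x - m) := by
      symm
      apply sum_subset (inter_subset_inter_right hsub)
      intro x hx hx'
      have hxH := (mem_inter.1 hx).1
      have hxB := (mem_inter.1 hx).2
      exact hzero x hxH (fun hh => hx' (mem_inter.2 ⟨hh, hxB⟩))
    have hA : ∑ x ∈ H, w x = m * H.card + ∑ x ∈ H', (w x - m) := by
      rw [← hS1, sum_sub_distrib]; simp [mul_comm]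
    have hB : ∑ x ∈ H ∩ B, w x = m * (H ∩ B).card + ∑ x ∈ H' ∩ B, (w x - m) := by
      rw [← hS2, sum_sub_distrib]; simp [mul_comm]
    have hcardB : m * ((H ∩ B).card : ℝ) ≤ c * (m * (H.card : ℝ)) := by
      rcases hm0.eq_or_lt with h0 | hpos
      · rw [← h0]; simp
      · have hall : H.filter (fun x => m ≤ w x) = H :=
          filter_true_of_mem (fun x hx => hmin x hx)
        have := h m hpos
        rw [hall] at this
        nlinarith
    rw [hA, hB, mul_add]
    linarith

/-- **Layer cake.** -/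
theorem layer_cake {α : Type*} [DecidableEq α] (H B : Finset α) (w : α → ℝ)
    (hw : ∀ x ∈ H, 0 ≤ w x) (c : ℝ) (hc : 0 ≤ c)
    (h : ∀ τ : ℝ, 0 < τ → (((H.filter (fun x => τ ≤ w x)) ∩ B).card : ℝ)
          ≤ c * ((H.filter (fun x => τ ≤ w x)).card : ℝ)) :
    ∑ x ∈ H ∩ B, w x ≤ c * ∑ x ∈ H, w x :=
  layer_cake_aux B c hc H.card H w rfl hw h

end Crest.Agent.S0071Aux.H89
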