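import Crest.Agent.S0071Aux.Defs
import Crest.Agent.S0071Aux.M0
import Crest.Agent.S0071Aux.M1
import Crest.Agent.S0071Aux.M2
import Crest.Agent.S0071Aux.M8
import Crest.Agent.S0071Aux.M9
import Crest.Agent.S0071Aux.MC

/-! S0071, final assembly (helper16), from the board lemmas M0, M1, M2, M8, M9, MC of helper23. -/

set_option autoImplicit false

namespace Crest.Agent.S0071Aux

open Finset

theorem main_h16 (α : Type) [Fintype α]
    [DecidableEq α] [Nonempty α] (F : Finset (Finset α)) (hne : F.Nonempty) (hempty : ∅ ∉ F)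
    (hup : ∀ A ∈ F, ∀ B : Finset α, A ⊆ B → B ∈ F) (r : ℝ) (hr0 : 0 ≤ r) (hr1 : r ≤ 1)
    (g : Finset α → ℝ) (hg : ∀ S : Finset α, 0 ≤ g S ∧ g S ≤ 1)
    (hcov : ∀ H ∈ F, 1 ≤ ∑ S ∈ H.powerset, g S)
    (hcost : ∑ S : Finset α, g S * r ^ S.card ≤ 1 / 2) :
    ∃ G : Finset (Finset α), (∀ H ∈ F, ∃ S ∈ G, S ⊆ H) ∧
      ∑ S ∈ G, (r / (25 * 512 ^ 4)) ^ S.card ≤ 1 / 2 := by
  classical
  by_cases hr : r = 0
  · refine ⟨F, fun H hH => ⟨H, hH, Finset.Subset.refl _⟩, ?_⟩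
    have : ∑ S ∈ F, (r / (25 * 512 ^ 4)) ^ S.card = 0 := by
      apply Finset.sum_eq_zero
      intro S hS
      have hS0 : S.card ≠ 0 := by
        intro h
        rw [Finset.card_eq_zero] at h
        exact hempty (h ▸ hS)
      rw [hr, zero_div, zero_pow hS0]
    rw [this]; norm_num
  have hrpos : 0 < r := lt_of_le_of_ne hr0 (Ne.symm hr)
  set q : ℝ := r / (25 * 512 ^ 4) with hqdef
  have hqpos : 0 < q := by positivity
  obtain ⟨J, p, hp0, hp, hple, hsum⟩ := exists_params q hqpos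
  by_contra hno
  push_neg at hno
  have hg0 : ∀ S, 0 ≤ g S := fun S => (hg S).1
  have hPw0 : ∀ ω : α → ℕ, 0 ≤ Pw p ω := fun ω => Finset.prod_nonneg (fun x _ => hp0 _)
  -- Step A
  have hA : ∀ ω ∈ Om α J, (¬ ∃ H ∈ F, InQ (wH g) J ω 0 H) →
      1 / 2 < ∑ ω' ∈ (Om α J).filter
        (fun ω' => (∀ x, ω' x ≤ ω x) ∧ Valid F (wH g) J ω' (Td ω ω')), q ^ (Td ω ω').card := by
    intro ω hω hbad
    have h1 := hno (((Om α J).filter
        (fun ω' => (∀ x, ω' x ≤ ω x) ∧ Valid F (wH g) J ω' (Td ω ω'))).image (fun ω' => Td ω ω')) ?_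
    · refine lt_of_lt_of_le h1 ?_
      exact Finset.sum_image_le_of_nonneg (f := fun S : Finset α => q ^ S.card)
        (fun u _ => by positivity)
    · intro H hH
      obtain ⟨ω', hω', hle, hsub, hval⟩ := cover F (wH g) J ω hω hbad H hH
      exact ⟨Td ω ω', Finset.mem_image.2 ⟨ω', Finset.mem_filter.2 ⟨hω', hle, hval⟩, rfl⟩, hsub⟩
  -- Step B
  have hB := cost_bound F (wH g) J p q hqpos.le hp0 hp hsum
  have hBad : ∑ ω ∈ (Om α J).filter (fun ω => ¬ ∃ H ∈ F, InQ (wH g) J ω 0 H), Pw p ω ≤ 1 / 2 := by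
    have h1 : ∑ ω ∈ (Om α J).filter (fun ω => ¬ ∃ H ∈ F, InQ (wH g) J ω 0 H), Pw p ω * (1 / 2)
        ≤ ∑ ω ∈ Om α J, Pw p ω *
      ∑ ω' ∈ (Om α J).filter (fun ω' => (∀ x, ω' x ≤ ω x) ∧ Valid F (wH g) J ω' (Td ω ω')),
        q ^ (Td ω ω').card := by
      refine le_trans (Finset.sum_le_sum ?_) (Finset.sum_le_sum_of_subset_of_nonneg
        (Finset.filter_subset _ _) ?_)
      · intro ω hω
        rw [Finset.mem_filter] at hω
        exact mul_le_mul_of_nonneg_left (hA ω hω.1 hω.2).le (hPw0 ω)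
      · intro ω _ _
        exact mul_nonneg (hPw0 ω) (Finset.sum_nonneg (fun _ _ => by positivity))
    rw [← Finset.sum_mul] at h1
    linarith
  -- Step C
  have hTot : ∑ ω ∈ Om α J, Pw p ω = 1 := by
    have := sum_Pw_prod (α := α) J p hsum ∅ (fun _ => 1)
    simpa using this
  -- Step D
  have hGood : 1 / 2 ≤ ∑ ω ∈ (Om α J).filter (fun ω => ∃ H ∈ F, InQ (wH g) J ω 0 H), Pw p ω := by
    have := Finset.sum_filter_add_sum_filter_not (Om α J)
      (fun ω => ∃ H ∈ F, InQ (wH g) J ω 0 H) (fun ω => Pw p ω)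
    linarith
  -- g ∅ ≤ 1/2
  have hgE : g ∅ ≤ 1 / 2 := by
    have h1 : g ∅ * r ^ (∅ : Finset α).card ≤ ∑ S : Finset α, g S * r ^ S.card :=
      Finset.single_le_sum (f := fun S : Finset α => g S * r ^ S.card)
        (fun S _ => mul_nonneg (hg0 S) (pow_nonneg hr0 _)) (Finset.mem_univ _)
    simp at h1
    linarith
  have hPhi0 : ∀ ω : α → ℕ, 0 ≤ Phi g ω := fun ω => Finset.sum_nonneg (fun I _ => hg0 I)
  -- Step E
  have hE : (1 / 2) * ((1 - g ∅) / 2) ≤ ∑ ω ∈ Om α J, Pw p ω * Phi g ω := by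
    have h1 : ∑ ω ∈ (Om α J).filter (fun ω => ∃ H ∈ F, InQ (wH g) J ω 0 H),
        Pw p ω * ((1 - g ∅) / 2) ≤ ∑ ω ∈ Om α J, Pw p ω * Phi g ω := by
      refine le_trans (Finset.sum_le_sum ?_) (Finset.sum_le_sum_of_subset_of_nonneg
        (Finset.filter_subset _ _) ?_)
      · intro ω hω
        rw [Finset.mem_filter] at hω
        exact mul_le_mul_of_nonneg_left (Phi_ge F g hg0 hcov J ω hω.1 hω.2) (hPw0 ω)
      · intro ω _ _
        exact mul_nonneg (hPw0 ω) (hPhi0 ω)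
    rw [← Finset.sum_mul] at h1
    have h2 : 0 ≤ (1 - g ∅) / 2 := by linarith
    nlinarith
  -- Step F
  have hF := EPhi_le J p q hqpos.le hp0 hple hsum g hg0
  have hF2 : ∑ I ∈ (univ : Finset (Finset α)).filter Finset.Nonempty, g I * (131072 * q) ^ I.card
      ≤ (131072 / (25 * 512 ^ 4)) * (1 / 2) := by
    have h1 : ∑ I ∈ (univ : Finset (Finset α)).filter Finset.Nonempty, g I * (131072 * q) ^ I.card
        ≤ ∑ I ∈ (univ : Finset (Finset α)).filter Finset.Nonempty,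
          (131072 / (25 * 512 ^ 4)) * (g I * r ^ I.card) := by
      apply Finset.sum_le_sum
      intro I hI
      rw [Finset.mem_filter] at hI
      have hc : I.card ≠ 0 := by
        rw [Finset.card_ne_zero]; exact hI.2
      have e1 : (131072 * q) ^ I.card = (131072 / (25 * 512 ^ 4) : ℝ) ^ I.card * r ^ I.card := by
        rw [← mul_pow, hqdef]; congr 1; ring
      have e2 : (131072 / (25 * 512 ^ 4) : ℝ) ^ I.card ≤ 131072 / (25 * 512 ^ 4) :=
        pow_le_of_le_one (by norm_num) (by norm_num) hc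
      rw [e1]
      have h3 : 0 ≤ g I * r ^ I.card := mul_nonneg (hg0 I) (pow_nonneg hr0 _)
      calc g I * ((131072 / (25 * 512 ^ 4) : ℝ) ^ I.card * r ^ I.card)
          = (131072 / (25 * 512 ^ 4) : ℝ) ^ I.card * (g I * r ^ I.card) := by ring
        _ ≤ _ := mul_le_mul_of_nonneg_right e2 h3
    rw [← Finset.mul_sum] at h1
    have h2 : ∑ I ∈ (univ : Finset (Finset α)).filter Finset.Nonempty, g I * r ^ I.card ≤ 1 / 2 :=
      le_trans (Finset.sum_le_sum_of_subset_of_nonneg (Finset.filter_subset _ _)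
        (fun I _ _ => mul_nonneg (hg0 I) (pow_nonneg hr0 _))) hcost
    refine le_trans h1 (mul_le_mul_of_nonneg_left h2 (by norm_num))
  have hfin : (1 / 2 : ℝ) * ((1 - g ∅) / 2) ≤ (131072 / (25 * 512 ^ 4)) * (1 / 2) :=
    le_trans hE (le_trans hF hF2)
  have : (131072 / (25 * 512 ^ 4) : ℝ) * (1 / 2) < 1 / 8 := by norm_num
  linarith

end Crest.Agent.S0071Aux
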