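import Crest.Agent.S0071Aux.Defs

/-! Backup proof of task M2 (`cover`) of the S0071 board.  helper40. -/

set_option autoImplicit false

namespace Crest.Agent.S0071Aux

open Finset

variable {α : Type} [Fintype α] [DecidableEq α]

lemma m2b_mem_Om {J : ℕ} {ω : α → ℕ} : ω ∈ Om α J ↔ ∀ x, ω x ≤ J := by
  simp [Om, Fintype.mem_piFinset, Nat.lt_succ_iff]

lemma m2b_step (w : Finset α → α → ℝ) (J : ℕ) (ω : α → ℕ)
    (ω' : α → ℕ) (χ : Finset α)
    (hχ : InQ w J ω' (tv ω' (Td ω ω')) χ) (x : α) (hx : x ∈ Td ω ω')
    (hxC : x ∉ Cst (w χ) χ (ω' x) (tv ω' (Td ω ω') (ω' x))) :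
    InQ w J (Function.update ω' x (ω' x + 1))
      (tv (Function.update ω' x (ω' x + 1)) (Td ω (Function.update ω' x (ω' x + 1)))) χ := by
  obtain ⟨ω'', hω''⟩ : ∃ f, f = Function.update ω' x (ω' x + 1) := ⟨_, rfl⟩
  rw [← hω'']
  have hxx : ω'' x = ω' x + 1 := by simp [hω'']
  have hne : ∀ z, z ≠ x → ω'' z = ω' z := fun z hz => by
    rw [hω'', Function.update_of_ne hz]
  have hmono : ∀ z, ω' z ≤ ω'' z := by
    intro z
    by_cases hz : z = x
    · rw [hz, hxx]; omega
    · rw [hne z hz]
  have hTsub : Td ω ω'' ⊆ Td ω ω' := by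
    intro z hz
    simp only [Td, mem_filter, mem_univ, true_and] at hz ⊢
    exact lt_of_le_of_lt (hmono z) hz
  have F3a : ∀ i, tv ω'' (Td ω ω'') i ≤ tv ω' (Td ω ω') i := by
    intro i
    unfold tv
    apply card_le_card
    intro z hz
    simp only [mem_filter] at hz ⊢
    exact ⟨hTsub hz.1, le_trans (hmono z) hz.2⟩
  have F3b : tv ω'' (Td ω ω'') (ω' x) + 1 ≤ tv ω' (Td ω ω') (ω' x) := by
    unfold tv
    have hsub : (Td ω ω'').filter (fun z => ω'' z ≤ ω' x) ⊆
        ((Td ω ω').filter (fun z => ω' z ≤ ω' x)).erase x := by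
      intro z hz
      have hz' := mem_filter.1 hz
      rw [mem_erase]
      refine ⟨?_, mem_filter.2 ⟨hTsub hz'.1, le_trans (hmono z) hz'.2⟩⟩
      intro hzx
      have h2 := hz'.2
      rw [hzx, hxx] at h2
      omega
    have hmem : x ∈ (Td ω ω').filter (fun z => ω' z ≤ ω' x) := mem_filter.2 ⟨hx, le_refl _⟩
    have h1 := card_le_card hsub
    rw [card_erase_of_mem hmem] at h1
    have hpos : 0 < ((Td ω ω').filter (fun z => ω' z ≤ ω' x)).card := card_pos.2 ⟨x, hmem⟩
    omega
  have F1 : ∀ i, i ≠ ω' x → ∀ C : Finset α, Nn ω'' i C = Nn ω' i C := by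
    intro i hi C
    unfold Nn
    congr 1
    apply filter_congr
    intro z _
    by_cases hz : z = x
    · rw [hz, hxx]
      constructor <;> intro h <;> omega
    · rw [hne z hz]
  have F2a : ∀ C : Finset α, Nn ω'' (ω' x) C ≤ Nn ω' (ω' x) C + 1 := by
    intro C
    unfold Nn
    have hsub : C.filter (fun z => ω' x < ω'' z) ⊆ insert x (C.filter (fun z => ω' x < ω' z)) := by
      intro z hz
      have hz' := mem_filter.1 hz
      by_cases hzx : z = x
      · rw [hzx]; exact mem_insert_self _ _
      · apply mem_insert_of_mem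
        rw [hne z hzx] at hz'
        exact mem_filter.2 hz'
    exact le_trans (card_le_card hsub) (card_insert_le _ _)
  have F2b : ∀ C : Finset α, x ∉ C → Nn ω'' (ω' x) C = Nn ω' (ω' x) C := by
    intro C hC
    unfold Nn
    congr 1
    apply filter_congr
    intro z hz
    have hzx : z ≠ x := fun h => hC (h ▸ hz)
    rw [hne z hzx]
  intro i hi y hy
  have old := hχ i hi y hy
  by_cases hij : i = ω' x
  · subst hij
    by_cases hC : (Lev (w χ) χ y).card < Dd (ω' x) * tv ω' (Td ω ω') (ω' x)
    · have hxC' : x ∉ Lev (w χ) χ y := by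
        intro hxin
        apply hxC
        have hx2 : x ∈ χ ∧ w χ y ≤ w χ x := by
          simpa only [Lev, mem_filter] using hxin
        simp only [Cst, mem_filter]
        exact ⟨hx2.1, y, hy, hx2.2, hC⟩
      rw [F2b _ hxC']
      rcases old with h | h
      · left
        refine le_trans (Nat.mul_le_mul_left _ ?_) h
        have := F3a (ω' x)
        omega
      · right; exact h
    · push_neg at hC
      left
      have h1 : Dd (ω' x) * (Nn ω' (ω' x) (Lev (w χ) χ y) + tv ω' (Td ω ω') (ω' x))
          ≤ 2 * (Lev (w χ) χ y).card := by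
        rcases old with h | h
        · exact h
        · rw [Nat.mul_add]; omega
      refine le_trans (Nat.mul_le_mul_left _ ?_) h1
      have h2 := F2a (Lev (w χ) χ y)
      have h3 := F3b
      omega
  · rw [F1 i hij]
    rcases old with h | h
    · left
      refine le_trans (Nat.mul_le_mul_left _ ?_) h
      have := F3a i
      omega
    · right; exact h

/-- M2 (backup) -/
lemma cover_b40 (F : Finset (Finset α)) (w : Finset α → α → ℝ) (J : ℕ) (ω : α → ℕ)
    (hω : ω ∈ Om α J) (hbad : ¬ ∃ H ∈ F, InQ w J ω 0 H) (S : Finset α) (hS : S ∈ F) :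
    ∃ ω' ∈ Om α J, (∀ x, ω' x ≤ ω x) ∧ Td ω ω' ⊆ S ∧ Valid F w J ω' (Td ω ω') := by
  have hωJ := m2b_mem_Om.1 hω
  have key : ∀ n : ℕ, ∀ ω' : α → ℕ, (∀ x, ω' x ≤ ω x) → Td ω ω' ⊆ S →
      (∃ H ∈ F, InQ w J ω' (tv ω' (Td ω ω')) H) → ∑ x, (ω x - ω' x) = n →
      ∃ ω' ∈ Om α J, (∀ x, ω' x ≤ ω x) ∧ Td ω ω' ⊆ S ∧ Valid F w J ω' (Td ω ω') := by
    intro n
    induction n using Nat.strong_induction_on with
    | _ n ih =>
      intro ω' hle hsub hex hn
      have hT : (Td ω ω').Nonempty := by
        by_contra hne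
        rw [not_nonempty_iff_eq_empty] at hne
        have heq : ω' = ω := by
          funext x
          apply le_antisymm (hle x)
          by_contra hlt
          push_neg at hlt
          have hmem : x ∈ Td ω ω' := by simp [Td, hlt]
          rw [hne] at hmem
          simp at hmem
        apply hbad
        obtain ⟨H, hH, hQ⟩ := hex
        refine ⟨H, hH, ?_⟩
        rw [hne, heq] at hQ
        have h0 : tv ω (∅ : Finset α) = 0 := by funext j; simp [tv]
        rw [h0] at hQ
        exact hQ
      have hχ : chi F w J ω' (tv ω' (Td ω ω')) ∈ F ∧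
          InQ w J ω' (tv ω' (Td ω ω')) (chi F w J ω' (tv ω' (Td ω ω'))) := by
        unfold chi
        rw [dif_pos hex]
        exact hex.choose_spec
      by_cases hall : ∀ x ∈ Td ω ω',
          x ∈ Cst (w (chi F w J ω' (tv ω' (Td ω ω')))) (chi F w J ω' (tv ω' (Td ω ω'))) (ω' x)
            (tv ω' (Td ω ω') (ω' x))
      · refine ⟨ω', m2b_mem_Om.2 (fun x => le_trans (hle x) (hωJ x)), hle, hsub, hT, hex, ?_⟩
        intro x hx
        refine ⟨?_, hall x hx⟩
        have hlt : ω' x < ω x := by simpa [Td] using hx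
        exact lt_of_lt_of_le hlt (hωJ x)
      · push_neg at hall
        obtain ⟨x, hx, hxC⟩ := hall
        have hlt : ω' x < ω x := by simpa [Td] using hx
        have hstep := m2b_step w J ω ω' _ hχ.2 x hx hxC
        refine ih (∑ y, (ω y - Function.update ω' x (ω' x + 1) y)) ?_
          (Function.update ω' x (ω' x + 1)) ?_ ?_ ⟨_, hχ.1, hstep⟩ rfl
        · rw [← hn]
          apply Finset.sum_lt_sum
          · intro y _
            by_cases hy : y = x
            · rw [hy, Function.update_self]; omega
            · rw [Function.update_of_ne hy]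
          · refine ⟨x, mem_univ _, ?_⟩
            rw [Function.update_self]; omega
        · intro y
          by_cases hy : y = x
          · rw [hy, Function.update_self]; omega
          · rw [Function.update_of_ne hy]; exact hle y
        · intro y hy
          apply hsub
          simp only [Td, mem_filter, mem_univ, true_and] at hy ⊢
          by_cases hyx : y = x
          · rw [hyx]; exact hlt
          · rwa [Function.update_of_ne hyx] at hy
  refine key _ (fun x => if x ∈ S then 0 else ω x) ?_ ?_ ⟨S, hS, ?_⟩ rfl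
  · intro x
    by_cases h : x ∈ S <;> simp [h]
  · intro x hx
    simp only [Td, mem_filter, mem_univ, true_and] at hx
    by_contra h
    simp [h] at hx
  · intro j hj y hy
    right
    have h0 : Nn (fun x => if x ∈ S then 0 else ω x) j (Lev (w S) S y) = 0 := by
      unfold Nn
      rw [card_eq_zero, filter_eq_empty_iff]
      intro z hz
      have hzS : z ∈ S := by
        have := hz
        simp only [Lev, mem_filter] at this
        exact this.1
      simp [hzS]
    rw [h0]
    simp

end Crest.Agent.S0071Aux
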