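import Crest.Agent.S0071Aux.Defs

/-! helper77: independent BACKUP of task M2 (`cover`) of the S0071 board (row 52, row incomplete). -/

set_option autoImplicit false
namespace Crest.Agent.S0071Aux
open Finset
variable {α : Type} [Fintype α] [DecidableEq α]

lemma m2b77_mem_Om {J : ℕ} {ω : α → ℕ} : ω ∈ Om α J ↔ ∀ x, ω x ≤ J := by
  simp [Om, Fintype.mem_piFinset, Nat.lt_succ_iff]

lemma m2b77_chi_spec (F : Finset (Finset α)) (w : Finset α → α → ℝ) (J : ℕ) (ω : α → ℕ)
    (t : ℕ → ℕ) (h : ∃ H ∈ F, InQ w J ω t H) :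
    chi F w J ω t ∈ F ∧ InQ w J ω t (chi F w J ω t) := by
  unfold chi
  rw [dif_pos h]
  exact h.choose_spec

lemma m2b77_step (w : Finset α → α → ℝ) (J : ℕ) (ω ω' : α → ℕ) (χ : Finset α)
    (hQ : InQ w J ω' (tv ω' (Td ω ω')) χ) (x : α) (hx : x ∈ Td ω ω')
    (hxC : x ∉ Cst (w χ) χ (ω' x) (tv ω' (Td ω ω') (ω' x))) :
    InQ w J (Function.update ω' x (ω' x + 1))
      (tv (Function.update ω' x (ω' x + 1)) (Td ω (Function.update ω' x (ω' x + 1)))) χ := by
  set ω'' := Function.update ω' x (ω' x + 1) with hω''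
  have hxx : ω'' x = ω' x + 1 := by simp [hω'']
  have hne : ∀ z, z ≠ x → ω'' z = ω' z := fun z hz => by simp [hω'', Function.update_of_ne hz]
  have hmono : ∀ z, ω' z ≤ ω'' z := by
    intro z
    by_cases hz : z = x
    · subst hz; omega
    · rw [hne z hz]
  have hTsub : Td ω ω'' ⊆ Td ω ω' := by
    intro z hz
    simp only [Td, mem_filter, mem_univ, true_and] at hz ⊢
    exact lt_of_le_of_lt (hmono z) hz
  have htle : ∀ i, tv ω'' (Td ω ω'') i ≤ tv ω' (Td ω ω') i := by
    intro i
    unfold tv
    apply card_le_card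
    intro z hz
    rw [mem_filter] at hz ⊢
    exact ⟨hTsub hz.1, (hmono z).trans hz.2⟩
  have htlt : tv ω'' (Td ω ω'') (ω' x) + 1 ≤ tv ω' (Td ω ω') (ω' x) := by
    unfold tv
    apply Nat.succ_le_of_lt
    apply card_lt_card
    rw [ssubset_iff_of_subset]
    · refine ⟨x, by rw [mem_filter]; exact ⟨hx, le_rfl⟩, ?_⟩
      rw [mem_filter]
      rintro ⟨_, h⟩
      omega
    · intro z hz
      rw [mem_filter] at hz ⊢
      exact ⟨hTsub hz.1, (hmono z).trans hz.2⟩
  have hNeq : ∀ (i : ℕ) (C : Finset α), (i ≠ ω' x ∨ x ∉ C) → Nn ω'' i C = Nn ω' i C := by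
    intro i C h
    unfold Nn
    congr 1
    apply filter_congr
    intro z hz
    by_cases hzx : z = x
    · subst hzx
      rcases h with h | h
      · rw [hxx]; omega
      · exact absurd hz h
    · rw [hne z hzx]
  have hNle : ∀ C : Finset α, Nn ω'' (ω' x) C ≤ Nn ω' (ω' x) C + 1 := by
    intro C
    unfold Nn
    calc (C.filter (fun z => ω' x < ω'' z)).card
        ≤ (insert x (C.filter (fun z => ω' x < ω' z))).card := by
          apply card_le_card
          intro z hz
          rw [mem_filter] at hz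
          by_cases hzx : z = x
          · subst hzx; exact mem_insert_self _ _
          · apply mem_insert_of_mem
            rw [mem_filter]
            exact ⟨hz.1, by rw [← hne z hzx]; exact hz.2⟩
      _ ≤ _ := card_insert_le _ _
  intro i hi y hy
  have hold := hQ i hi y hy
  generalize hC : Lev (w χ) χ y = C at hold ⊢
  by_cases hij : i = ω' x
  · subst hij
    by_cases hcard : C.card < Dd (ω' x) * tv ω' (Td ω ω') (ω' x)
    · have hxnC : x ∉ C := by
        intro hxC'
        apply hxC
        rw [← hC, Lev, mem_filter] at hxC'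
        simp only [Cst, mem_filter]
        exact ⟨hxC'.1, y, hy, hxC'.2, by rw [hC]; exact hcard⟩
      rw [hNeq _ C (Or.inr hxnC)]
      rcases hold with h | h
      · left
        calc _ ≤ Dd (ω' x) * (Nn ω' (ω' x) C + tv ω' (Td ω ω') (ω' x)) :=
              Nat.mul_le_mul_left _ (Nat.add_le_add_left (htle _) _)
          _ ≤ _ := h
      · right; exact h
    · push Not at hcard
      left
      have h1 : Dd (ω' x) * (Nn ω' (ω' x) C + tv ω' (Td ω ω') (ω' x)) ≤ 2 * C.card := by
        rcases hold with h | h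
        · exact h
        · rw [Nat.mul_add]; omega
      calc _ ≤ Dd (ω' x) * (Nn ω' (ω' x) C + tv ω' (Td ω ω') (ω' x)) :=
            Nat.mul_le_mul_left _ (by have := hNle C; omega)
        _ ≤ _ := h1
  · rw [hNeq i C (Or.inl hij)]
    rcases hold with h | h
    · left
      calc _ ≤ Dd i * (Nn ω' i C + tv ω' (Td ω ω') i) :=
            Nat.mul_le_mul_left _ (Nat.add_le_add_left (htle _) _)
        _ ≤ _ := h
    · right; exact h

/-- backup of M2 -/
lemma cover_b77 (F : Finset (Finset α)) (w : Finset α → α → ℝ) (J : ℕ) (ω : α → ℕ)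
    (hω : ω ∈ Om α J) (hbad : ¬ ∃ H ∈ F, InQ w J ω 0 H) (S : Finset α) (hS : S ∈ F) :
    ∃ ω' ∈ Om α J, (∀ x, ω' x ≤ ω x) ∧ Td ω ω' ⊆ S ∧ Valid F w J ω' (Td ω ω') := by
  have hωJ := m2b77_mem_Om.mp hω
  have key : ∀ n : ℕ, ∀ ω' : α → ℕ, (∀ x, ω' x ≤ ω x) → Td ω ω' ⊆ S →
      (∃ H ∈ F, InQ w J ω' (tv ω' (Td ω ω')) H) → ∑ x, (ω x - ω' x) = n →
      ∃ ω' ∈ Om α J, (∀ x, ω' x ≤ ω x) ∧ Td ω ω' ⊆ S ∧ Valid F w J ω' (Td ω ω') := by
    intro n
    induction n using Nat.strong_induction_on with
    | _ n ih =>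
      intro ω' hle hsub hex hpot
      have hne : (Td ω ω').Nonempty := by
        by_contra hemp
        rw [not_nonempty_iff_eq_empty] at hemp
        have heq : ω' = ω := by
          funext x
          have : x ∉ Td ω ω' := by rw [hemp]; exact notMem_empty x
          simp only [Td, mem_filter, mem_univ, true_and] at this
          exact le_antisymm (hle x) (by omega)
        apply hbad
        obtain ⟨H, hH, hQ⟩ := hex
        refine ⟨H, hH, ?_⟩
        rw [hemp, heq] at hQ
        have h0 : tv ω (∅ : Finset α) = 0 := by funext j; simp [tv]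
        rwa [h0] at hQ
      obtain ⟨hχF, hχQ⟩ := m2b77_chi_spec F w J ω' _ hex
      by_cases hall : ∀ x ∈ Td ω ω', x ∈ Cst (w (chi F w J ω' (tv ω' (Td ω ω'))))
          (chi F w J ω' (tv ω' (Td ω ω'))) (ω' x) (tv ω' (Td ω ω') (ω' x))
      · refine ⟨ω', m2b77_mem_Om.mpr fun x => (hle x).trans (hωJ x), hle, hsub, hne, hex,
          fun x hx => ⟨?_, hall x hx⟩⟩
        have : ω' x < ω x := by simpa [Td] using hx
        exact lt_of_lt_of_le this (hωJ x)
      · push Not at hall
        obtain ⟨x, hx, hxC⟩ := hall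
        have hxlt : ω' x < ω x := by simpa [Td] using hx
        have hstep := m2b77_step w J ω ω' _ hχQ x hx hxC
        have hxx : Function.update ω' x (ω' x + 1) x = ω' x + 1 := by simp
        have hnx : ∀ z, z ≠ x → Function.update ω' x (ω' x + 1) z = ω' z :=
          fun z hz => Function.update_of_ne hz _ _
        have hle'' : ∀ z, Function.update ω' x (ω' x + 1) z ≤ ω z := by
          intro z
          by_cases hz : z = x
          · subst hz; rw [hxx]; omega
          · rw [hnx z hz]; exact hle z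
        have hsub'' : Td ω (Function.update ω' x (ω' x + 1)) ⊆ S := by
          intro z hz
          apply hsub
          simp only [Td, mem_filter, mem_univ, true_and] at hz ⊢
          by_cases hzx : z = x
          · subst hzx; exact hxlt
          · rwa [hnx z hzx] at hz
        have hpot'' : ∑ z, (ω z - Function.update ω' x (ω' x + 1) z) < n := by
          rw [← hpot]
          apply Finset.sum_lt_sum
          · intro z _
            by_cases hzx : z = x
            · subst hzx; rw [hxx]; omega
            · rw [hnx z hzx]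
          · exact ⟨x, mem_univ _, by rw [hxx]; omega⟩
        exact ih _ hpot'' _ hle'' hsub'' ⟨_, hχF, hstep⟩ rfl
  refine key _ (fun x => if x ∈ S then 0 else ω x) ?_ ?_ ⟨S, hS, ?_⟩ rfl
  · intro x
    show (if x ∈ S then 0 else ω x) ≤ ω x
    split_ifs <;> omega
  · intro x hx
    simp only [Td, mem_filter, mem_univ, true_and] at hx
    by_contra hxS
    rw [if_neg hxS] at hx
    omega
  · intro j _ y _
    right
    have h0 : Nn (fun x => if x ∈ S then 0 else ω x) j (Lev (w S) S y) = 0 := by
      unfold Nn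
      rw [card_eq_zero, filter_eq_empty_iff]
      intro z hz
      have hzS : z ∈ S := by
        rw [Lev, mem_filter] at hz
        exact hz.1
      simp [hzS]
    rw [h0]
    simp

end Crest.Agent.S0071Aux
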