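import Crest.Agent.S0071Aux.Defs

/-! Independent fallback proof of task M2 (cover lemma) of the S0071 board.  helper91. -/

set_option autoImplicit false

namespace Crest.Agent.S0071Aux

open Finset

variable {α : Type} [Fintype α] [DecidableEq α]

lemma m2x91_chi_spec (F : Finset (Finset α)) (w : Finset α → α → ℝ) (J : ℕ) (ω : α → ℕ)
    (t : ℕ → ℕ) (h : ∃ H ∈ F, InQ w J ω t H) :
    chi F w J ω t ∈ F ∧ InQ w J ω t (chi F w J ω t) := by
  unfold chi
  rw [dif_pos h]
  exact h.choose_spec

lemma m2x91_mem_Om {J : ℕ} {ω : α → ℕ} : ω ∈ Om α J ↔ ∀ x, ω x ≤ J := by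
  unfold Om
  simp [Fintype.mem_piFinset, Nat.lt_succ_iff]

/-- feasibility -/
def m2x91_Feas (F : Finset (Finset α)) (w : Finset α → α → ℝ) (J : ℕ) (ω : α → ℕ) (S : Finset α)
    (ω' : α → ℕ) : Prop :=
  (∀ x, ω' x ≤ ω x) ∧ Td ω ω' ⊆ S ∧ ∃ H ∈ F, InQ w J ω' (tv ω' (Td ω ω')) H

lemma m2x91_start (F : Finset (Finset α)) (w : Finset α → α → ℝ) (J : ℕ) (ω : α → ℕ)
    (S : Finset α) (hS : S ∈ F) :
    m2x91_Feas F w J ω S (fun x => if x ∈ S then 0 else ω x) := by
  refine ⟨?_, ?_, S, hS, ?_⟩
  · intro x
    by_cases hx : x ∈ S <;> simp [hx]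
  · intro x hx
    by_contra hxS
    simp [Td, hxS] at hx
  · intro j _ y _
    right
    have : Nn (fun x => if x ∈ S then 0 else ω x) j (Lev (w S) S y) = 0 := by
      unfold Nn
      rw [Finset.card_eq_zero, Finset.filter_eq_empty_iff]
      intro x hx
      have hxS : x ∈ S := (Finset.mem_filter.1 hx).1
      simp [hxS]
    rw [this]
    simp

lemma m2x91_step (F : Finset (Finset α)) (w : Finset α → α → ℝ) (J : ℕ) (ω : α → ℕ)
    (S : Finset α) (ω' : α → ℕ) (hf : m2x91_Feas F w J ω S ω') (x : α) (hx : x ∈ Td ω ω')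
    (hnot : x ∉ Cst (w (chi F w J ω' (tv ω' (Td ω ω')))) (chi F w J ω' (tv ω' (Td ω ω'))) (ω' x)
      (tv ω' (Td ω ω') (ω' x))) :
    m2x91_Feas F w J ω S (Function.update ω' x (ω' x + 1)) := by
  obtain ⟨hle, hsub, hex⟩ := hf
  obtain ⟨hχF, hχ⟩ := m2x91_chi_spec F w J ω' _ hex
  set χ := chi F w J ω' (tv ω' (Td ω ω')) with hχdef
  set j := ω' x with hj
  set ω'' := Function.update ω' x (j + 1) with hω''
  have hxlt : ω' x < ω x := by simpa [Td] using hx
  have hmono : ∀ z, ω' z ≤ ω'' z := by
    intro z
    by_cases hz : z = x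
    · subst hz; simp [hω'', hj]
    · simp [hω'', Function.update_of_ne hz]
  have hω''x : ω'' x = j + 1 := by simp [hω'']
  have hω''ne : ∀ z, z ≠ x → ω'' z = ω' z := by
    intro z hz; simp [hω'', Function.update_of_ne hz]
  have hTsub : Td ω ω'' ⊆ Td ω ω' := by
    intro z hz
    simp only [Td, Finset.mem_filter, Finset.mem_univ, true_and] at hz ⊢
    exact lt_of_le_of_lt (hmono z) hz
  refine ⟨?_, hTsub.trans hsub, χ, hχF, ?_⟩
  · intro z
    by_cases hz : z = x
    · subst hz; rw [hω''x]; exact hxlt
    · rw [hω''ne z hz]; exact hle z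
  · intro i hi y hy
    set C := Lev (w χ) χ y with hC
    have hold := hχ i hi y hy
    rw [← hC] at hold
    -- t'' ≤ t
    have ht : tv ω'' (Td ω ω'') i ≤ tv ω' (Td ω ω') i := by
      unfold tv
      apply Finset.card_le_card
      intro z hz
      rw [Finset.mem_filter] at hz ⊢
      exact ⟨hTsub hz.1, le_trans (hmono z) hz.2⟩
    by_cases hij : i = j
    · -- the critical level
      have ht1 : tv ω'' (Td ω ω'') i + 1 ≤ tv ω' (Td ω ω') i := by
        unfold tv
        apply Finset.card_lt_card
        refine ⟨?_, ?_⟩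
        · intro z hz
          rw [Finset.mem_filter] at hz ⊢
          exact ⟨hTsub hz.1, le_trans (hmono z) hz.2⟩
        · intro hcon
          have hxin : x ∈ (Td ω ω').filter (fun z => ω' z ≤ i) := by
            rw [Finset.mem_filter]; exact ⟨hx, by rw [hij]⟩
          have := hcon hxin
          rw [Finset.mem_filter, hω''x, hij] at this
          omega
      have hN1 : Nn ω'' i C ≤ Nn ω' i C + 1 := by
        unfold Nn
        calc (C.filter (fun z => i < ω'' z)).card
            ≤ (insert x (C.filter (fun z => i < ω' z))).card := by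
              apply Finset.card_le_card
              intro z hz
              rw [Finset.mem_filter] at hz
              by_cases hzx : z = x
              · subst hzx; exact Finset.mem_insert_self _ _
              · apply Finset.mem_insert_of_mem
                rw [Finset.mem_filter]
                exact ⟨hz.1, by rw [← hω''ne z hzx]; exact hz.2⟩
          _ ≤ (C.filter (fun z => i < ω' z)).card + 1 := Finset.card_insert_le _ _
      by_cases hcard : C.card < Dd j * tv ω' (Td ω ω') j
      · have hxC : x ∉ C := by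
          intro hxC
          apply hnot
          rw [hC, Lev, Finset.mem_filter] at hxC
          unfold Cst
          rw [Finset.mem_filter]
          exact ⟨hxC.1, y, hy, hxC.2, hcard⟩
        have hN0 : Nn ω'' i C ≤ Nn ω' i C := by
          unfold Nn
          apply Finset.card_le_card
          intro z hz
          rw [Finset.mem_filter] at hz ⊢
          have hzx : z ≠ x := by
            intro h; rw [h] at hz; exact hxC hz.1
          exact ⟨hz.1, by rw [← hω''ne z hzx]; exact hz.2⟩
        rcases hold with h1 | h2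
        · left
          exact le_trans (Nat.mul_le_mul_left _ (Nat.add_le_add hN0 ht)) h1
        · right
          exact le_trans (Nat.mul_le_mul_left _ hN0) h2
      · left
        have hcard' : Dd i * tv ω' (Td ω ω') i ≤ C.card := by
          rw [hij]; exact not_lt.1 hcard
        have hsum : Dd i * (Nn ω' i C + tv ω' (Td ω ω') i) ≤ 2 * C.card := by
          rcases hold with h1 | h2
          · exact h1
          · rw [Nat.mul_add]; omega
        refine le_trans (Nat.mul_le_mul_left _ ?_) hsum
        omega
    · have hN0 : Nn ω'' i C = Nn ω' i C := by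
        unfold Nn
        congr 1
        apply Finset.filter_congr
        intro z _
        by_cases hzx : z = x
        · subst hzx
          rw [hω''x]
          constructor
          · intro h; omega
          · intro h; omega
        · rw [hω''ne z hzx]
      rcases hold with h1 | h2
      · left
        rw [hN0]
        exact le_trans (Nat.mul_le_mul_left _ (Nat.add_le_add_left ht _)) h1
      · right
        rw [hN0]; exact h2

/-- M2 (independent proof) -/
lemma cover91 (F : Finset (Finset α)) (w : Finset α → α → ℝ) (J : ℕ) (ω : α → ℕ)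
    (hω : ω ∈ Om α J) (hbad : ¬ ∃ H ∈ F, InQ w J ω 0 H) (S : Finset α) (hS : S ∈ F) :
    ∃ ω' ∈ Om α J, (∀ x, ω' x ≤ ω x) ∧ Td ω ω' ⊆ S ∧ Valid F w J ω' (Td ω ω') := by
  classical
  have hωJ := m2x91_mem_Om.1 hω
  -- the finite set of feasible labellings
  let P : Finset (α → ℕ) := (Om α J).filter (fun ω' => m2x91_Feas F w J ω S ω')
  have hPne : P.Nonempty := by
    refine ⟨fun x => if x ∈ S then 0 else ω x, ?_⟩
    rw [Finset.mem_filter]
    refine ⟨?_, m2x91_start F w J ω S hS⟩
    rw [m2x91_mem_Om]
    intro x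
    exact le_trans ((m2x91_start F w J ω S hS).1 x) (hωJ x)
  obtain ⟨ω', hω'P, hmax⟩ := Finset.exists_max_image P (fun ω' => ∑ x, ω' x) hPne
  rw [Finset.mem_filter] at hω'P
  obtain ⟨hω'Om, hfeas⟩ := hω'P
  refine ⟨ω', hω'Om, hfeas.1, hfeas.2.1, ?_, hfeas.2.2, ?_⟩
  · -- nonempty
    by_contra hne
    rw [Finset.not_nonempty_iff_eq_empty] at hne
    have heq : ω' = ω := by
      funext x
      have : x ∉ Td ω ω' := by rw [hne]; simp
      simp only [Td, Finset.mem_filter, Finset.mem_univ, true_and, not_lt] at this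
      exact le_antisymm (hfeas.1 x) this
    apply hbad
    obtain ⟨H, hH, hQ⟩ := hfeas.2.2
    refine ⟨H, hH, ?_⟩
    rw [hne, heq] at hQ
    have h0 : tv ω (∅ : Finset α) = 0 := by
      funext j; simp [tv]
    rw [h0] at hQ
    exact hQ
  · intro x hx
    have hxlt : ω' x < ω x := by simpa [Td] using hx
    refine ⟨lt_of_lt_of_le hxlt (hωJ x), ?_⟩
    by_contra hnot
    have hstep := m2x91_step F w J ω S ω' hfeas x hx hnot
    have hmem : Function.update ω' x (ω' x + 1) ∈ P := by
      rw [Finset.mem_filter]
      refine ⟨?_, hstep⟩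
      rw [m2x91_mem_Om]
      intro z
      exact le_trans (hstep.1 z) (hωJ z)
    have hle := hmax _ hmem
    have hlt : ∑ z, ω' z < ∑ z, Function.update ω' x (ω' x + 1) z := by
      apply Finset.sum_lt_sum
      · intro z _
        by_cases hz : z = x
        · subst hz; simp
        · simp [Function.update_of_ne hz]
      · exact ⟨x, Finset.mem_univ _, by simp⟩
    omega

end Crest.Agent.S0071Aux
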