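import Crest.Agent.S0071Aux.Defs
import Crest.Agent.S0071Aux.M5

/-! Independent backup of task M45 of the S0071 board (helper20): the sum over all valid repair
sets, with the bound of task M4 taken as a hypothesis. -/

set_option autoImplicit false

namespace Crest.Agent.S0071Aux

open Finset

variable {α : Type} [Fintype α] [DecidableEq α]

lemma m45b20_sv_le (J : ℕ) (ω' : α → ℕ) (T : Finset α) (j : Fin J) :
    sv J ω' T j ≤ Fintype.card α := by
  unfold sv
  exact (Finset.card_le_univ _)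

lemma m45b20_sv_mem (J : ℕ) (ω' : α → ℕ) (T : Finset α) :
    sv J ω' T ∈ Fintype.piFinset (fun _ : Fin J => range (Fintype.card α + 1)) := by
  rw [Fintype.mem_piFinset]
  intro j
  rw [Finset.mem_range]
  exact Nat.lt_succ_of_le (m45b20_sv_le J ω' T j)

lemma m45b20_sv_ne_zero (F : Finset (Finset α)) (w : Finset α → α → ℝ) (J : ℕ) (ω' : α → ℕ)
    (T : Finset α) (hT : Valid F w J ω' T) : sv J ω' T ≠ 0 := by
  obtain ⟨⟨x, hx⟩, -, h3⟩ := hT
  have hlt : ω' x < J := (h3 x hx).1
  intro h0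
  have h1 : sv J ω' T ⟨ω' x, hlt⟩ = 0 := by rw [h0]; rfl
  unfold sv at h1
  rw [Finset.card_eq_zero] at h1
  have : x ∈ T.filter (fun y => ω' y = ω' x) := by
    rw [Finset.mem_filter]; exact ⟨hx, rfl⟩
  rw [h1] at this
  exact absurd this (Finset.notMem_empty x)

open Classical in
/-- backup of M45, with the conclusion of M4 as a hypothesis -/
lemma sum_valid_b20 (F : Finset (Finset α)) (w : Finset α → α → ℝ) (J : ℕ) (ω' : α → ℕ)
    (hM4 : ∀ s : Fin J → ℕ,
      ∑ T ∈ (univ : Finset (Finset α)).filter (fun T => Valid F w J ω' T ∧ sv J ω' T = s),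
        ∏ x ∈ T, (1 / Ll (ω' x))
      ≤ ∏ j : Fin J, ((3 / 256 : ℝ) / 2 ^ (j : ℕ)) ^ (s j)) :
    ∑ T ∈ (univ : Finset (Finset α)).filter (fun T => Valid F w J ω' T),
        ∏ x ∈ T, (1 / Ll (ω' x)) ≤ 1 / 4 := by
  have hmaps : ∀ T ∈ (univ : Finset (Finset α)).filter (fun T => Valid F w J ω' T),
      sv J ω' T ∈ (Fintype.piFinset (fun _ : Fin J => range (Fintype.card α + 1))).filter
        (fun s => s ≠ 0) := by
    intro T hT
    rw [Finset.mem_filter] at hT ⊢
    exact ⟨m45b20_sv_mem J ω' T, m45b20_sv_ne_zero F w J ω' T hT.2⟩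
  rw [← Finset.sum_fiberwise_of_maps_to hmaps]
  refine le_trans (Finset.sum_le_sum ?_) (sum_over_s J (Fintype.card α))
  intro s _
  refine le_trans (le_of_eq ?_) (hM4 s)
  rw [Finset.filter_filter]

end Crest.Agent.S0071Aux
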