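import Crest.Agent.S0071Aux.Defs

/-! Backup proof of task M4 of the S0071 board (helper47). Self-contained (own copy of M6). -/

set_option autoImplicit false
namespace Crest.Agent.S0071Aux
open Finset
variable {α : Type} [Fintype α] [DecidableEq α]

lemma m4h47_card_Cst_le (w : α → ℝ) (H : Finset α) (j tj : ℕ) :
    (Cst w H j tj).card ≤ Dd j * tj := by
  classical
  set Y := H.filter (fun y => (Lev w H y).card < Dd j * tj) with hY
  by_cases hne : Y.Nonempty
  · obtain ⟨y0, hy0, hmin⟩ := Finset.exists_min_image Y w hne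
    have hsub : Cst w H j tj ⊆ Lev w H y0 := by
      intro x hx
      unfold Cst at hx
      rw [Finset.mem_filter] at hx
      obtain ⟨hxH, y, hyH, hyx, hcard⟩ := hx
      have hyY : y ∈ Y := by
        rw [hY, Finset.mem_filter]; exact ⟨hyH, hcard⟩
      unfold Lev
      rw [Finset.mem_filter]
      exact ⟨hxH, le_trans (hmin y hyY) hyx⟩
    have h1 := Finset.card_le_card hsub
    rw [hY, Finset.mem_filter] at hy0
    omega
  · have hempty : Cst w H j tj = ∅ := by
      rw [Finset.eq_empty_iff_forall_notMem]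
      intro x hx
      unfold Cst at hx
      rw [Finset.mem_filter] at hx
      obtain ⟨hxH, y, hyH, hyx, hcard⟩ := hx
      exact hne ⟨y, by rw [hY, Finset.mem_filter]; exact ⟨hyH, hcard⟩⟩
    rw [hempty]; simp

lemma m4h47_tv_eq (J : ℕ) (ω' : α → ℕ) (T : Finset α) (hT : ∀ x ∈ T, ω' x < J) :
    tv ω' T = tOf (sv J ω' T) := by
  funext j
  unfold tv tOf sv
  simp only [Finset.card_filter]
  rw [Finset.sum_comm]
  apply Finset.sum_congr rfl
  intro x hx
  have hxJ := hT x hx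
  rw [Finset.sum_filter]
  rw [Finset.sum_eq_single (⟨ω' x, hxJ⟩ : Fin J)]
  · simp
  · intro b _ hb
    have : ω' x ≠ b.val := fun h => hb (Fin.ext h.symm)
    simp [this]
  · simp

lemma m4h47_prod_fiber (J : ℕ) (ω' : α → ℕ) (T : Finset α) (hT : ∀ x ∈ T, ω' x < J)
    (u : ℕ → ℝ) :
    ∏ x ∈ T, u (ω' x) = ∏ j : Fin J, u (j : ℕ) ^ (sv J ω' T j) := by
  have h1 : ∏ x ∈ T, u (ω' x) = ∏ j ∈ range J, ∏ x ∈ T with ω' x = j, u (ω' x) := by
    rw [Finset.prod_fiberwise_of_maps_to]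
    intro x hx
    exact Finset.mem_range.mpr (hT x hx)
  rw [h1, Finset.prod_range]
  apply Finset.prod_congr rfl
  intro j _
  unfold sv
  rw [← Finset.prod_const]
  apply Finset.prod_congr rfl
  intro x hx
  rw [(Finset.mem_filter.mp hx).2]

lemma m4h47_geom (J : ℕ) : ∑ j ∈ range J, (1 : ℝ) / 2 ^ (j + 1) ≤ 1 := by
  have h : ∀ n : ℕ, ∑ j ∈ range n, (1 : ℝ) / 2 ^ (j + 1) = 1 - 1 / 2 ^ n := by
    intro n
    induction n with
    | zero => simp
    | succ k ih =>
      rw [Finset.sum_range_succ, ih]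
      have : (2 : ℝ) ^ (k + 1) = 2 * 2 ^ k := by ring
      have h2 : (2 : ℝ) ^ k ≠ 0 := by positivity
      rw [this]; field_simp; ring
  rw [h]
  have : (0 : ℝ) ≤ 1 / 2 ^ J := by positivity
  linarith

open Classical in
lemma sum_fixed_s_h47 (F : Finset (Finset α)) (w : Finset α → α → ℝ) (J : ℕ) (ω' : α → ℕ)
    (s : Fin J → ℕ) :
    ∑ T ∈ (univ : Finset (Finset α)).filter (fun T => Valid F w J ω' T ∧ sv J ω' T = s),
        ∏ x ∈ T, (1 / Ll (ω' x))
      ≤ ∏ j : Fin J, ((3 / 256 : ℝ) / 2 ^ (j : ℕ)) ^ (s j) := by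
  set χ := chi F w J ω' (tOf s) with hχ
  set A : Finset α :=
    univ.filter (fun x => ω' x < J ∧ x ∈ Cst (w χ) χ (ω' x) (tOf s (ω' x))) with hA
  set v : ℕ → ℝ := fun j => 1 / (2 ^ (j + 1) * (Dd j : ℝ)) with hv
  set u : ℕ → ℝ := fun j => (1 / 256 : ℝ) / 2 ^ j with hu
  set t : ℕ := ∑ j, s j with ht
  have hvnn : ∀ j, 0 ≤ v j := by
    intro j; simp only [hv]; unfold Dd; positivity
  have hunn : ∀ j, 0 ≤ u j := by
    intro j; simp only [hu]; positivity
  have hLl : ∀ j, 1 / Ll j = v j * u j := by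
    intro j
    simp only [hv, hu]
    unfold Ll Dd
    push_cast
    have h8 : (8 : ℝ) ^ j = 2 ^ j * 2 ^ j * 2 ^ j := by
      rw [← mul_pow, ← mul_pow]; norm_num
    rw [h8]
    have h2 : (2 : ℝ) ^ j ≠ 0 := by positivity
    field_simp
    ring
  set U : ℝ := ∏ j : Fin J, u (j : ℕ) ^ (s j) with hU
  have hUnn : 0 ≤ U := Finset.prod_nonneg (fun j _ => pow_nonneg (hunn _) _)
  -- each term
  have hterm : ∀ T ∈ (univ : Finset (Finset α)).filter
      (fun T => Valid F w J ω' T ∧ sv J ω' T = s),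
      T ∈ A.powerset ∧ ∏ x ∈ T, (1 / Ll (ω' x)) = U * ∏ x ∈ T, v (ω' x) := by
    intro T hT
    rw [Finset.mem_filter] at hT
    obtain ⟨-, hval, hsv⟩ := hT
    obtain ⟨-, -, hall⟩ := hval
    have hTJ : ∀ x ∈ T, ω' x < J := fun x hx => (hall x hx).1
    have htv : tv ω' T = tOf s := by rw [m4h47_tv_eq J ω' T hTJ, hsv]
    rw [htv] at hall
    constructor
    · rw [Finset.mem_powerset]
      intro x hx
      rw [hA, Finset.mem_filter]
      exact ⟨Finset.mem_univ _, hall x hx⟩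
    · have : ∏ x ∈ T, (1 / Ll (ω' x)) = (∏ x ∈ T, v (ω' x)) * ∏ x ∈ T, u (ω' x) := by
        rw [← Finset.prod_mul_distrib]
        exact Finset.prod_congr rfl (fun x _ => hLl _)
      rw [this, m4h47_prod_fiber J ω' T hTJ u, hsv, mul_comm]
  have h1 : ∑ T ∈ (univ : Finset (Finset α)).filter
      (fun T => Valid F w J ω' T ∧ sv J ω' T = s), ∏ x ∈ T, (1 / Ll (ω' x))
      = ∑ T ∈ (univ : Finset (Finset α)).filter
      (fun T => Valid F w J ω' T ∧ sv J ω' T = s), U * ∏ x ∈ T, v (ω' x) :=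
    Finset.sum_congr rfl (fun T hT => (hterm T hT).2)
  have h2 : ∑ T ∈ (univ : Finset (Finset α)).filter
      (fun T => Valid F w J ω' T ∧ sv J ω' T = s), U * ∏ x ∈ T, v (ω' x)
      ≤ ∑ T ∈ A.powerset, U * ∏ x ∈ T, v (ω' x) := by
    apply Finset.sum_le_sum_of_subset_of_nonneg
    · intro T hT; exact (hterm T hT).1
    · intro T _ _
      exact mul_nonneg hUnn (Finset.prod_nonneg (fun x _ => hvnn _))
  have h3 : ∑ T ∈ A.powerset, ∏ x ∈ T, v (ω' x) = ∏ x ∈ A, (1 + v (ω' x)) := by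
    rw [Finset.prod_one_add]
  have h4 : ∏ x ∈ A, (1 + v (ω' x)) ≤ Real.exp (∑ x ∈ A, v (ω' x)) := by
    rw [Real.exp_sum]
    apply Finset.prod_le_prod
    · intro x _; have := hvnn (ω' x); linarith
    · intro x _; have := Real.add_one_le_exp (v (ω' x)); linarith
  have h5 : ∑ x ∈ A, v (ω' x) ≤ (t : ℝ) := by
    have hmaps : ∀ x ∈ A, ω' x ∈ range J := by
      intro x hx
      rw [hA, Finset.mem_filter] at hx
      exact Finset.mem_range.mpr hx.2.1
    rw [← Finset.sum_fiberwise_of_maps_to hmaps]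
    have hb : ∀ j ∈ range J, ∑ x ∈ A with ω' x = j, v (ω' x) ≤ (t : ℝ) * (1 / 2 ^ (j + 1)) := by
      intro j hj
      have e1 : ∑ x ∈ A with ω' x = j, v (ω' x) = ((A.filter (fun x => ω' x = j)).card : ℝ) * v j := by
        rw [Finset.sum_congr rfl (fun x hx => by rw [(Finset.mem_filter.mp hx).2])]
        rw [Finset.sum_const, nsmul_eq_mul]
      rw [e1]
      have hsub : A.filter (fun x => ω' x = j) ⊆ Cst (w χ) χ j (tOf s j) := by
        intro x hx
        rw [Finset.mem_filter, hA, Finset.mem_filter] at hx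
        obtain ⟨⟨-, -, hx2⟩, hxj⟩ := hx
        rw [hxj] at hx2
        exact hx2
      have hc1 : (A.filter (fun x => ω' x = j)).card ≤ Dd j * tOf s j :=
        le_trans (Finset.card_le_card hsub) (m4h47_card_Cst_le _ _ _ _)
      have hc2 : tOf s j ≤ t := by
        unfold tOf
        exact Finset.sum_le_sum_of_subset (Finset.filter_subset _ _)
      have hc3 : (A.filter (fun x => ω' x = j)).card ≤ Dd j * t :=
        le_trans hc1 (Nat.mul_le_mul_left _ hc2)
      have hc4 : ((A.filter (fun x => ω' x = j)).card : ℝ) ≤ (Dd j : ℝ) * (t : ℝ) := by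
        exact_mod_cast hc3
      have hD : (0 : ℝ) < (Dd j : ℝ) := by unfold Dd; positivity
      calc ((A.filter (fun x => ω' x = j)).card : ℝ) * v j
          ≤ ((Dd j : ℝ) * (t : ℝ)) * v j := mul_le_mul_of_nonneg_right hc4 (hvnn j)
        _ = (t : ℝ) * (1 / 2 ^ (j + 1)) := by
            simp only [hv]; field_simp
    calc ∑ j ∈ range J, ∑ x ∈ A with ω' x = j, v (ω' x)
        ≤ ∑ j ∈ range J, (t : ℝ) * (1 / 2 ^ (j + 1)) := Finset.sum_le_sum hb
      _ = (t : ℝ) * ∑ j ∈ range J, (1 : ℝ) / 2 ^ (j + 1) := by rw [Finset.mul_sum]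
      _ ≤ (t : ℝ) * 1 := mul_le_mul_of_nonneg_left (m4h47_geom J) (Nat.cast_nonneg _)
      _ = t := mul_one _
  have h6 : Real.exp (t : ℝ) ≤ 3 ^ t := by
    rw [← Real.exp_one_pow]
    apply pow_le_pow_left₀ (Real.exp_pos 1).le
    have := Real.exp_one_lt_d9
    linarith
  have h7 : U * 3 ^ t = ∏ j : Fin J, ((3 / 256 : ℝ) / 2 ^ (j : ℕ)) ^ (s j) := by
    rw [hU, ht, ← Finset.prod_pow_eq_pow_sum, ← Finset.prod_mul_distrib]
    apply Finset.prod_congr rfl
    intro j _
    rw [← mul_pow]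
    congr 1
    simp only [hu]
    ring
  rw [h1]
  calc _ ≤ ∑ T ∈ A.powerset, U * ∏ x ∈ T, v (ω' x) := h2
    _ = U * ∏ x ∈ A, (1 + v (ω' x)) := by rw [← Finset.mul_sum, h3]
    _ ≤ U * 3 ^ t := by
        apply mul_le_mul_of_nonneg_left _ hUnn
        exact le_trans h4 (le_trans (Real.exp_le_exp.mpr h5) h6)
    _ = _ := h7

end Crest.Agent.S0071Aux
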