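import Crest.Agent.S0071Aux.Defs

/-! Backup proof of task M4 (`sum_fixed_s`) of the S0071 board.  helper67. -/

set_option autoImplicit false

namespace Crest.Agent.S0071Aux.H67

open Finset Crest.Agent.S0071Aux

variable {α : Type} [Fintype α] [DecidableEq α]

lemma m4_card_Cst_le (w : α → ℝ) (H : Finset α) (j tj : ℕ) :
    (Cst w H j tj).card ≤ Dd j * tj := by
  classical
  by_cases hne : ((H.filter (fun y => (Lev w H y).card < Dd j * tj))).Nonempty
  · obtain ⟨y0, hy0, hmin⟩ := Finset.exists_min_image _ w hne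
    rw [Finset.mem_filter] at hy0
    have hsub : Cst w H j tj ⊆ Lev w H y0 := by
      intro x hx
      unfold Cst at hx
      rw [Finset.mem_filter] at hx
      obtain ⟨hxH, y, hyH, hyx, hcard⟩ := hx
      unfold Lev
      rw [Finset.mem_filter]
      exact ⟨hxH, le_trans (hmin y (Finset.mem_filter.mpr ⟨hyH, hcard⟩)) hyx⟩
    exact le_trans (Finset.card_le_card hsub) hy0.2.le
  · have : Cst w H j tj = ∅ := by
      rw [Finset.eq_empty_iff_forall_notMem]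
      intro x hx
      unfold Cst at hx
      rw [Finset.mem_filter] at hx
      obtain ⟨hxH, y, hyH, hyx, hcard⟩ := hx
      exact hne ⟨y, Finset.mem_filter.mpr ⟨hyH, hcard⟩⟩
    rw [this]; simp

lemma m4_tv_eq (J : ℕ) (ω' : α → ℕ) (T : Finset α) (hT : ∀ x ∈ T, ω' x < J) (j : ℕ) :
    tv ω' T j = tOf (sv J ω' T) j := by
  unfold tv tOf sv
  simp only [Finset.card_filter]
  rw [Finset.sum_comm]
  apply Finset.sum_congr rfl
  intro x hx
  rw [Finset.sum_filter]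
  rw [Finset.sum_eq_single (⟨ω' x, hT x hx⟩ : Fin J)]
  · simp
  · intro b _ hb
    have : ω' x ≠ b.val := fun h => hb (Fin.ext h.symm)
    simp [this]
  · simp

lemma m4_prod_fiber (J : ℕ) (ω' : α → ℕ) (T : Finset α) (hT : ∀ x ∈ T, ω' x < J) (f : ℕ → ℝ) :
    ∏ x ∈ T, f (ω' x) = ∏ j : Fin J, f j ^ (sv J ω' T j) := by
  unfold sv
  have h1 : ∀ j : Fin J, f j ^ (T.filter (fun x => ω' x = j.val)).card
      = ∏ x ∈ T.filter (fun x => ω' x = j.val), f (ω' x) := by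
    intro j
    rw [Finset.prod_congr rfl (fun x hx => by rw [(Finset.mem_filter.mp hx).2])]
    rw [Finset.prod_const]
  simp only [h1]
  simp only [Finset.prod_filter]
  rw [Finset.prod_comm]
  apply Finset.prod_congr rfl
  intro x hx
  rw [Finset.prod_eq_single (⟨ω' x, hT x hx⟩ : Fin J)]
  · simp
  · intro b _ hb
    have : ω' x ≠ b.val := fun h => hb (Fin.ext h.symm)
    simp [this]
  · simp

lemma m4_geom (J : ℕ) : ∑ j : Fin J, (1 / 2 : ℝ) ^ ((j : ℕ) + 1) ≤ 1 := by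
  rw [Fin.sum_univ_eq_sum_range (fun j => (1 / 2 : ℝ) ^ (j + 1)) J]
  have h : ∀ n : ℕ, ∑ j ∈ range n, (1 / 2 : ℝ) ^ (j + 1) = 1 - (1 / 2) ^ n := by
    intro n
    induction n with
    | zero => simp
    | succ n ih => rw [Finset.sum_range_succ, ih]; ring
  rw [h]
  have : (0 : ℝ) ≤ (1 / 2) ^ J := by positivity
  linarith

lemma m4_tOf_le {J : ℕ} (s : Fin J → ℕ) (j : ℕ) : tOf s j ≤ ∑ i, s i := by
  unfold tOf
  exact Finset.sum_le_sum_of_subset (Finset.filter_subset _ _)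

lemma m4_prod_bound (J : ℕ) (ω' : α → ℕ) (A : Finset α) (hA : ∀ x ∈ A, ω' x < J) (t : ℕ)
    (hcard : ∀ j : Fin J, sv J ω' A j ≤ Dd j * t) :
    ∏ x ∈ A, (1 + 1 / (16 * 4 ^ (ω' x) : ℝ)) ≤ 3 ^ t := by
  rw [m4_prod_fiber J ω' A hA (fun j => 1 + 1 / (16 * 4 ^ j : ℝ))]
  have h1 : ∀ j : Fin J, (1 + 1 / (16 * 4 ^ (j : ℕ) : ℝ)) ^ (sv J ω' A j)
      ≤ Real.exp ((t : ℝ) * (1 / 2) ^ ((j : ℕ) + 1)) := by
    intro j
    have hv : (0 : ℝ) ≤ 1 / (16 * 4 ^ (j : ℕ)) := by positivity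
    calc (1 + 1 / (16 * 4 ^ (j : ℕ) : ℝ)) ^ (sv J ω' A j)
        ≤ (Real.exp (1 / (16 * 4 ^ (j : ℕ)))) ^ (sv J ω' A j) := by
          apply pow_le_pow_left₀ (by positivity)
          rw [add_comm]; exact Real.add_one_le_exp _
      _ = Real.exp ((sv J ω' A j : ℝ) * (1 / (16 * 4 ^ (j : ℕ)))) := by
          rw [← Real.exp_nat_mul]
      _ ≤ Real.exp ((t : ℝ) * (1 / 2) ^ ((j : ℕ) + 1)) := by
          apply Real.exp_le_exp.mpr
          have h2 : (sv J ω' A j : ℝ) ≤ (Dd j : ℝ) * t := by exact_mod_cast hcard j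
          calc (sv J ω' A j : ℝ) * (1 / (16 * 4 ^ (j : ℕ)))
              ≤ ((Dd j : ℝ) * t) * (1 / (16 * 4 ^ (j : ℕ))) :=
                mul_le_mul_of_nonneg_right h2 hv
            _ = (t : ℝ) * (1 / 2) ^ ((j : ℕ) + 1) := by
                unfold Dd
                push_cast
                have h4 : (4 : ℝ) ^ (j : ℕ) = 2 ^ (j : ℕ) * 2 ^ (j : ℕ) := by
                  rw [← mul_pow]; norm_num
                rw [h4, one_div_pow]
                field_simp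
                ring
  calc ∏ j : Fin J, (1 + 1 / (16 * 4 ^ (j : ℕ) : ℝ)) ^ (sv J ω' A j)
      ≤ ∏ j : Fin J, Real.exp ((t : ℝ) * (1 / 2) ^ ((j : ℕ) + 1)) :=
        Finset.prod_le_prod (fun j _ => by positivity) (fun j _ => h1 j)
    _ = Real.exp (∑ j : Fin J, (t : ℝ) * (1 / 2) ^ ((j : ℕ) + 1)) := by rw [Real.exp_sum]
    _ ≤ Real.exp (t : ℝ) := by
        apply Real.exp_le_exp.mpr
        rw [← Finset.mul_sum]
        calc (t : ℝ) * _ ≤ t * 1 := mul_le_mul_of_nonneg_left (m4_geom J) (Nat.cast_nonneg t)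
          _ = t := mul_one _
    _ = Real.exp 1 ^ t := by rw [Real.exp_one_pow]
    _ ≤ 3 ^ t := by
        apply pow_le_pow_left₀ (Real.exp_pos 1).le
        have := Real.exp_one_lt_d9
        linarith

open Classical in
/-- M4 -/
lemma sum_fixed_s (F : Finset (Finset α)) (w : Finset α → α → ℝ) (J : ℕ) (ω' : α → ℕ)
    (s : Fin J → ℕ) :
    ∑ T ∈ (univ : Finset (Finset α)).filter (fun T => Valid F w J ω' T ∧ sv J ω' T = s),
        ∏ x ∈ T, (1 / Ll (ω' x))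
      ≤ ∏ j : Fin J, ((3 / 256 : ℝ) / 2 ^ (j : ℕ)) ^ (s j) := by
  set χ := chi F w J ω' (tOf s) with hχ
  set A : Finset α :=
    univ.filter (fun x => ω' x < J ∧ x ∈ Cst (w χ) χ (ω' x) (tOf s (ω' x))) with hA
  have hL : ∀ j : ℕ, 1 / Ll j = (1 / (16 * 4 ^ j : ℝ)) * ((1 / 256) / 2 ^ j) := by
    intro j
    unfold Ll
    have h8 : (8 : ℝ) ^ j = 4 ^ j * 2 ^ j := by rw [← mul_pow]; norm_num
    rw [h8]; field_simp; ring
  have htv : ∀ T, Valid F w J ω' T → sv J ω' T = s → tv ω' T = tOf s := by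
    intro T hT hs
    funext j
    rw [m4_tv_eq J ω' T (fun x hx => (hT.2.2 x hx).1) j, hs]
  have hterm : ∀ T ∈ (univ : Finset (Finset α)).filter
      (fun T => Valid F w J ω' T ∧ sv J ω' T = s),
      ∏ x ∈ T, (1 / Ll (ω' x)) = (∏ j : Fin J, ((1 / 256 : ℝ) / 2 ^ (j : ℕ)) ^ s j)
        * ∏ x ∈ T, (1 / (16 * 4 ^ (ω' x) : ℝ)) := by
    intro T hT
    rw [Finset.mem_filter] at hT
    obtain ⟨-, hV, hs⟩ := hT
    rw [Finset.prod_congr rfl (fun x _ => hL (ω' x)), Finset.prod_mul_distrib, mul_comm]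
    congr 1
    rw [m4_prod_fiber J ω' T (fun x hx => (hV.2.2 x hx).1) (fun j => (1 / 256 : ℝ) / 2 ^ j), hs]
  have hsub : (univ : Finset (Finset α)).filter
      (fun T => Valid F w J ω' T ∧ sv J ω' T = s) ⊆ A.powerset := by
    intro T hT
    rw [Finset.mem_filter] at hT
    obtain ⟨-, hV, hs⟩ := hT
    rw [Finset.mem_powerset]
    intro x hx
    have h := hV.2.2 x hx
    rw [htv T hV hs] at h
    rw [hA, Finset.mem_filter]
    exact ⟨Finset.mem_univ _, h.1, h.2⟩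
  have hAJ : ∀ x ∈ A, ω' x < J := fun x hx => (Finset.mem_filter.mp hx).2.1
  have hcard : ∀ j : Fin J, sv J ω' A j ≤ Dd j * (∑ i, s i) := by
    intro j
    unfold sv
    calc (A.filter (fun x => ω' x = j.val)).card ≤ (Cst (w χ) χ j (tOf s j)).card := by
          apply Finset.card_le_card
          intro x hx
          rw [Finset.mem_filter] at hx
          have h3 := (Finset.mem_filter.mp hx.1).2.2
          rw [hx.2] at h3
          exact h3
      _ ≤ Dd j * tOf s j := m4_card_Cst_le _ _ _ _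
      _ ≤ Dd j * ∑ i, s i := Nat.mul_le_mul_left _ (m4_tOf_le s j)
  have hu : (0 : ℝ) ≤ ∏ j : Fin J, ((1 / 256 : ℝ) / 2 ^ (j : ℕ)) ^ s j :=
    Finset.prod_nonneg (fun j _ => by positivity)
  calc ∑ T ∈ (univ : Finset (Finset α)).filter (fun T => Valid F w J ω' T ∧ sv J ω' T = s),
        ∏ x ∈ T, (1 / Ll (ω' x))
      = ∑ T ∈ (univ : Finset (Finset α)).filter (fun T => Valid F w J ω' T ∧ sv J ω' T = s),
        (∏ j : Fin J, ((1 / 256 : ℝ) / 2 ^ (j : ℕ)) ^ s j)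
          * ∏ x ∈ T, (1 / (16 * 4 ^ (ω' x) : ℝ)) := Finset.sum_congr rfl hterm
    _ = (∏ j : Fin J, ((1 / 256 : ℝ) / 2 ^ (j : ℕ)) ^ s j) *
        ∑ T ∈ (univ : Finset (Finset α)).filter (fun T => Valid F w J ω' T ∧ sv J ω' T = s),
          ∏ x ∈ T, (1 / (16 * 4 ^ (ω' x) : ℝ)) := by rw [Finset.mul_sum]
    _ ≤ (∏ j : Fin J, ((1 / 256 : ℝ) / 2 ^ (j : ℕ)) ^ s j) *
        ∑ T ∈ A.powerset, ∏ x ∈ T, (1 / (16 * 4 ^ (ω' x) : ℝ)) := by
        apply mul_le_mul_of_nonneg_left _ hu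
        apply Finset.sum_le_sum_of_subset_of_nonneg hsub
        intro T _ _
        exact Finset.prod_nonneg (fun x _ => by positivity)
    _ = (∏ j : Fin J, ((1 / 256 : ℝ) / 2 ^ (j : ℕ)) ^ s j) *
        ∏ x ∈ A, (1 + 1 / (16 * 4 ^ (ω' x) : ℝ)) := by rw [Finset.prod_one_add]
    _ ≤ (∏ j : Fin J, ((1 / 256 : ℝ) / 2 ^ (j : ℕ)) ^ s j) * 3 ^ (∑ i, s i) :=
        mul_le_mul_of_nonneg_left (m4_prod_bound J ω' A hAJ _ hcard) hu
    _ = ∏ j : Fin J, ((3 / 256 : ℝ) / 2 ^ (j : ℕ)) ^ (s j) := by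
        rw [← Finset.prod_pow_eq_pow_sum, ← Finset.prod_mul_distrib]
        apply Finset.prod_congr rfl
        intro j _
        rw [← mul_pow]
        congr 1
        ring

end Crest.Agent.S0071Aux.H67
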