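import Crest.Agent.S0071Aux.Defs

/-! S0071 board task M6 (helper64): the union of the small level sets is itself a small level set. -/

set_option autoImplicit false

namespace Crest.Agent.S0071Aux

open Finset

variable {α : Type} [Fintype α] [DecidableEq α]

/-- M6 -/
lemma card_Cst_le (w : α → ℝ) (H : Finset α) (j tj : ℕ) : (Cst w H j tj).card ≤ Dd j * tj := by
  classical
  by_cases hB : (H.filter (fun y => (Lev w H y).card < Dd j * tj)).Nonempty
  · obtain ⟨y0, hy0, hmin⟩ := Finset.exists_min_image _ w hB
    have hy0' := (Finset.mem_filter.mp hy0)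
    have hsub : Cst w H j tj ⊆ Lev w H y0 := by
      intro x hx
      unfold Cst at hx
      obtain ⟨hxH, y, hyH, hyx, hcard⟩ := Finset.mem_filter.mp hx
      have h1 : w y0 ≤ w y := hmin y (Finset.mem_filter.mpr ⟨hyH, hcard⟩)
      unfold Lev
      exact Finset.mem_filter.mpr ⟨hxH, h1.trans hyx⟩
    exact (Finset.card_le_card hsub).trans hy0'.2.le
  · have hempty : Cst w H j tj = ∅ := by
      rw [Finset.eq_empty_iff_forall_notMem]
      intro x hx
      unfold Cst at hx
      obtain ⟨_, y, hyH, _, hcard⟩ := Finset.mem_filter.mp hx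
      exact hB ⟨y, Finset.mem_filter.mpr ⟨hyH, hcard⟩⟩
    rw [hempty]
    simp

end Crest.Agent.S0071Aux
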