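import Crest.Agent.S0071Aux.Defs
import Crest.Agent.S0071Aux.M7

/-! Independent backup of board task M8 of S0071 (helper60). -/

set_option autoImplicit false

namespace Crest.Agent.S0071Aux

open Finset

variable {α : Type} [Fintype α] [DecidableEq α]

/-- swap of the two sums in `∑_{x∈H} w_H(x) f(x)` -/
lemma m8b60_swap (g : Finset α → ℝ) (H : Finset α) (f : α → ℝ) :
    ∑ x ∈ H, wH g H x * f x = ∑ I ∈ H.powerset, g I / I.card * ∑ x ∈ I, f x := by
  unfold wH
  simp_rw [Finset.sum_mul, Finset.sum_filter]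
  rw [Finset.sum_comm]
  refine Finset.sum_congr rfl fun I hI => ?_
  have hIH : I ⊆ H := Finset.mem_powerset.mp hI
  rw [Finset.sum_ite_mem, Finset.inter_eq_right.mpr hIH, Finset.mul_sum]

lemma m8b60_geom (J : ℕ) : ∑ j ∈ range J, 2 / (Dd j : ℝ) = 1 / 2 - 1 / 2 ^ (J + 1) := by
  induction J with
  | zero => norm_num
  | succ n ih =>
    rw [Finset.sum_range_succ, ih]
    unfold Dd
    push_cast
    field_simp
    ring

/-- M8 (backup) -/
lemma Phi_ge_b60 (F : Finset (Finset α)) (g : Finset α → ℝ) (hg : ∀ S, 0 ≤ g S)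
    (hcov : ∀ H ∈ F, 1 ≤ ∑ S ∈ H.powerset, g S) (J : ℕ) (ω : α → ℕ) (hω : ω ∈ Om α J)
    (hgood : ∃ H ∈ F, InQ (wH g) J ω 0 H) : (1 - g ∅) / 2 ≤ Phi g ω := by
  obtain ⟨H, hHF, hQ⟩ := hgood
  unfold InQ at hQ
  set w := wH g H with hw
  have hw0 : ∀ x ∈ H, 0 ≤ w x := fun x _ =>
    Finset.sum_nonneg (fun I _ => div_nonneg (hg I) (Nat.cast_nonneg _))
  have hωJ : ∀ x, ω x ≤ J := by
    intro x
    have := (Fintype.mem_piFinset.mp hω) x
    exact Nat.lt_succ_iff.mp (Finset.mem_range.mp this)
  set W := ∑ x ∈ H, w x with hW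
  have hW0 : 0 ≤ W := Finset.sum_nonneg hw0
  -- step 1
  have h1 : ∀ j < J, ∑ x ∈ H, w x * (if j < ω x then (1:ℝ) else 0) ≤ 2 / (Dd j : ℝ) * W := by
    intro j hj
    have hD : (0:ℝ) < Dd j := by unfold Dd; positivity
    have key := layer_cake H w hw0 (fun x => (Dd j : ℝ) * (if j < ω x then (1:ℝ) else 0) - 2) ?_
    · have e : ∑ x ∈ H, w x * ((Dd j : ℝ) * (if j < ω x then (1:ℝ) else 0) - 2)
          = (Dd j : ℝ) * ∑ x ∈ H, w x * (if j < ω x then (1:ℝ) else 0) - 2 * W := by
        rw [hW, Finset.mul_sum, Finset.mul_sum, ← Finset.sum_sub_distrib]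
        exact Finset.sum_congr rfl fun x _ => by ring
      rw [e] at key
      rw [div_mul_eq_mul_div, le_div_iff₀ hD]
      linarith
    · intro y hy
      have hq : Dd j * Nn ω j (Lev w H y) ≤ 2 * (Lev w H y).card := by
        rcases hQ j hj y hy with h | h
        · simpa using h
        · exact le_trans h (by omega)
      have e : ∑ x ∈ Lev w H y, ((Dd j : ℝ) * (if j < ω x then (1:ℝ) else 0) - 2)
          = (Dd j : ℝ) * (Nn ω j (Lev w H y) : ℝ) - 2 * ((Lev w H y).card : ℝ) := by
        rw [Finset.sum_sub_distrib, ← Finset.mul_sum, Finset.sum_boole, Finset.sum_const,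
          nsmul_eq_mul]
        unfold Nn
        ring
      rw [e]
      have h' : ((Dd j * Nn ω j (Lev w H y) : ℕ) : ℝ) ≤ ((2 * (Lev w H y).card : ℕ) : ℝ) := by
        exact_mod_cast hq
      push_cast at h'
      linarith
  -- step 2
  have hωsum : ∀ x, (ω x : ℝ) = ∑ j ∈ range J, (if j < ω x then (1:ℝ) else 0) := by
    intro x
    rw [Finset.sum_boole]
    have : (range J).filter (fun j => j < ω x) = range (ω x) := by
      ext j
      simp only [mem_filter, mem_range]
      constructor
      · exact fun h => h.2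
      · exact fun h => ⟨lt_of_lt_of_le h (hωJ x), h⟩
    rw [this, card_range]
  have h2 : ∑ x ∈ H, w x * (ω x : ℝ) ≤ W / 2 := by
    calc ∑ x ∈ H, w x * (ω x : ℝ)
        = ∑ j ∈ range J, ∑ x ∈ H, w x * (if j < ω x then (1:ℝ) else 0) := by
          rw [Finset.sum_comm]
          refine Finset.sum_congr rfl fun x _ => ?_
          rw [hωsum x, Finset.mul_sum]
      _ ≤ ∑ j ∈ range J, 2 / (Dd j : ℝ) * W :=
          Finset.sum_le_sum fun j hj => h1 j (mem_range.mp hj)
      _ = (∑ j ∈ range J, 2 / (Dd j : ℝ)) * W := by rw [Finset.sum_mul]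
      _ ≤ (1 / 2) * W := by
          apply mul_le_mul_of_nonneg_right _ hW0
          rw [m8b60_geom]
          have : (0:ℝ) < 1 / 2 ^ (J + 1) := by positivity
          linarith
      _ = W / 2 := by ring
  -- step 3 : W ≥ 1 - g ∅
  have hWge : 1 - g ∅ ≤ W := by
    have e1 : W = ∑ I ∈ H.powerset, (if I = ∅ then 0 else g I) := by
      have := m8b60_swap g H (fun _ => (1:ℝ))
      simp only [mul_one] at this
      rw [hW, hw, this]
      refine Finset.sum_congr rfl fun I _ => ?_
      by_cases hI : I = ∅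
      · simp [hI]
      · have hc : (I.card : ℝ) ≠ 0 := by
          exact_mod_cast (Finset.card_ne_zero.mpr (Finset.nonempty_iff_ne_empty.mpr hI))
        rw [if_neg hI, Finset.sum_const, nsmul_eq_mul, mul_one]
        field_simp
    have e2 : ∑ I ∈ H.powerset, g I
        = g ∅ + ∑ I ∈ H.powerset, (if I = ∅ then 0 else g I) := by
      have e3 : ∑ I ∈ H.powerset, (if I = ∅ then g I else 0) = g ∅ := by
        rw [Finset.sum_ite_eq' H.powerset ∅ g, if_pos (Finset.empty_mem_powerset H)]
      rw [← e3, ← Finset.sum_add_distrib]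
      refine Finset.sum_congr rfl fun I _ => ?_
      by_cases hI : I = ∅ <;> simp [hI]
    have := hcov H hHF
    rw [e2, ← e1] at this
    linarith
  -- step 4
  have h4 : ∑ x ∈ H, w x * (1 - (ω x : ℝ)) ≤ Phi g ω := by
    rw [hw, m8b60_swap g H (fun x => 1 - (ω x : ℝ))]
    unfold Phi
    rw [Finset.sum_filter]
    calc ∑ I ∈ H.powerset, g I / I.card * ∑ x ∈ I, (1 - (ω x : ℝ))
        ≤ ∑ I ∈ H.powerset, (if (I.Nonempty ∧ ∑ x ∈ I, ω x ≤ I.card) then g I else 0) := by
          refine Finset.sum_le_sum fun I _ => ?_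
          have es : ∑ x ∈ I, (1 - (ω x : ℝ)) = (I.card : ℝ) - ((∑ x ∈ I, ω x : ℕ) : ℝ) := by
            rw [Finset.sum_sub_distrib, Finset.sum_const, nsmul_eq_mul, mul_one]
            push_cast
            ring
          rw [es]
          by_cases hI : I.Nonempty
          · have hc : (0:ℝ) < (I.card : ℝ) := by exact_mod_cast Finset.card_pos.mpr hI
            by_cases hs : ∑ x ∈ I, ω x ≤ I.card
            · rw [if_pos ⟨hI, hs⟩]
              have hn : (0:ℝ) ≤ ((∑ x ∈ I, ω x : ℕ) : ℝ) := Nat.cast_nonneg _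
              calc g I / I.card * ((I.card : ℝ) - ((∑ x ∈ I, ω x : ℕ) : ℝ))
                  ≤ g I / I.card * (I.card : ℝ) := by
                    apply mul_le_mul_of_nonneg_left _ (div_nonneg (hg I) hc.le)
                    linarith
                _ = g I := by field_simp
            · rw [if_neg (fun h => hs h.2)]
              have hlt : (I.card : ℝ) < ((∑ x ∈ I, ω x : ℕ) : ℝ) := by
                exact_mod_cast not_le.mp hs
              apply mul_nonpos_of_nonneg_of_nonpos (div_nonneg (hg I) hc.le)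
              linarith
          · rw [if_neg (fun h => hI h.1)]
            rw [Finset.not_nonempty_iff_eq_empty.mp hI]
            simp
      _ ≤ ∑ I : Finset α, (if (I.Nonempty ∧ ∑ x ∈ I, ω x ≤ I.card) then g I else 0) := by
          apply Finset.sum_le_sum_of_subset_of_nonneg (Finset.subset_univ _)
          intro I _ _
          split_ifs
          · exact hg I
          · exact le_rfl
  have h5 : ∑ x ∈ H, w x * (1 - (ω x : ℝ)) = W - ∑ x ∈ H, w x * (ω x : ℝ) := by
    rw [hW, ← Finset.sum_sub_distrib]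
    exact Finset.sum_congr rfl fun x _ => by ring
  linarith

end Crest.Agent.S0071Aux
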