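import Crest.Agent.S0071Aux.Defs

/-! Independent backup of task M8 of the S0071 board (helper81).  Part of row 52. -/

set_option autoImplicit false

namespace Crest.Agent.S0071Aux

open Finset

variable {α : Type} [Fintype α] [DecidableEq α]

lemma m8b_layer_cake_aux (c : α → ℝ) : ∀ (n : ℕ) (H : Finset α) (w : α → ℝ), H.card = n →
    (∀ x ∈ H, 0 ≤ w x) → (∀ y ∈ H, ∑ x ∈ H.filter (fun x => w y ≤ w x), c x ≤ 0) →
    ∑ x ∈ H, w x * c x ≤ 0 := by
  intro n
  induction n using Nat.strong_induction_on with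
  | _ n ih =>
    intro H w hcard hw h
    rcases H.eq_empty_or_nonempty with rfl | hne
    · simp
    obtain ⟨y0, hy0, hmin⟩ := H.exists_min_image w hne
    have hlt : (H.filter (fun x => w y0 < w x)).card < n := by
      rw [← hcard]
      apply Finset.card_lt_card
      refine ⟨Finset.filter_subset _ _, fun hsub => ?_⟩
      have := hsub hy0
      simp at this
    have h1 : ∑ x ∈ H, c x ≤ 0 := by
      have := h y0 hy0
      rwa [Finset.filter_true_of_mem (fun x hx => hmin x hx)] at this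
    have h2 : ∑ x ∈ H.filter (fun x => w y0 < w x), (w x - w y0) * c x ≤ 0 := by
      apply ih _ hlt (H.filter (fun x => w y0 < w x)) (fun x => w x - w y0) rfl
      · intro x hx
        have := (Finset.mem_filter.mp hx).2
        linarith
      · intro y hy
        have hy' := Finset.mem_filter.mp hy
        have : (H.filter (fun x => w y0 < w x)).filter (fun x => w y - w y0 ≤ w x - w y0)
            = H.filter (fun x => w y ≤ w x) := by
          ext x
          simp only [Finset.mem_filter]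
          constructor
          · rintro ⟨⟨hx, _⟩, h3⟩; exact ⟨hx, by linarith⟩
          · rintro ⟨hx, h3⟩; exact ⟨⟨hx, by linarith [hy'.2]⟩, by linarith⟩
        rw [this]; exact h y hy'.1
    have h3 : ∑ x ∈ H, (w x - w y0) * c x
        = ∑ x ∈ H.filter (fun x => w y0 < w x), (w x - w y0) * c x := by
      rw [Finset.sum_filter]
      apply Finset.sum_congr rfl
      intro x hx
      split_ifs with h4
      · rfl
      · have : w x = w y0 := le_antisymm (not_lt.mp h4) (hmin x hx)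
        rw [this]; ring
    have h4 : ∑ x ∈ H, w x * c x = w y0 * ∑ x ∈ H, c x + ∑ x ∈ H, (w x - w y0) * c x := by
      rw [Finset.mul_sum, ← Finset.sum_add_distrib]
      apply Finset.sum_congr rfl; intro x _; ring
    rw [h4, h3]
    have h5 : w y0 * ∑ x ∈ H, c x ≤ 0 := mul_nonpos_iff.mpr (Or.inl ⟨hw y0 hy0, h1⟩)
    linarith

lemma m8b_layer_cake (H : Finset α) (w : α → ℝ) (hw : ∀ x ∈ H, 0 ≤ w x) (c : α → ℝ)
    (h : ∀ y ∈ H, ∑ x ∈ Lev w H y, c x ≤ 0) : ∑ x ∈ H, w x * c x ≤ 0 :=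
  m8b_layer_cake_aux c _ H w rfl hw h

lemma m8b_swap (g : Finset α → ℝ) (H : Finset α) (f : α → ℝ) :
    ∑ x ∈ H, wH g H x * f x = ∑ I ∈ H.powerset, g I * ((∑ x ∈ I, f x) / I.card) := by
  unfold wH
  have h1 : ∀ x ∈ H, (∑ I ∈ H.powerset with x ∈ I, g I / I.card) * f x
      = ∑ I ∈ H.powerset, if x ∈ I then g I / I.card * f x else 0 := by
    intro x _
    rw [Finset.sum_mul, Finset.sum_filter]
  rw [Finset.sum_congr rfl h1, Finset.sum_comm]
  apply Finset.sum_congr rfl
  intro I hI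
  have hIH : I ⊆ H := Finset.mem_powerset.mp hI
  rw [← Finset.sum_filter]
  have : H.filter (fun x => x ∈ I) = I := by
    ext x; simp only [Finset.mem_filter]; exact ⟨fun h => h.2, fun h => ⟨hIH h, h⟩⟩
  rw [this, ← Finset.mul_sum]
  ring

lemma m8b_geom (J : ℕ) : ∑ j ∈ range J, (2 : ℝ) / (Dd j : ℝ) = 1 / 2 - 1 / 2 ^ (J + 1) := by
  induction J with
  | zero => norm_num
  | succ J ih =>
    rw [Finset.sum_range_succ, ih]
    unfold Dd
    push_cast
    field_simp
    ring

lemma m8b_label (J : ℕ) (m : ℕ) (hm : m ≤ J) :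
    ∑ j ∈ range J, (if j < m then (1 : ℝ) else 0) = m := by
  rw [← Finset.sum_filter]
  have : (range J).filter (fun j => j < m) = range m := by
    ext j; simp only [Finset.mem_filter, Finset.mem_range]
    exact ⟨fun h => h.2, fun h => ⟨lt_of_lt_of_le h hm, h⟩⟩
  rw [this]; simp

/-- backup of M8 -/
lemma Phi_ge_b81 (F : Finset (Finset α)) (g : Finset α → ℝ) (hg : ∀ S, 0 ≤ g S)
    (hcov : ∀ H ∈ F, 1 ≤ ∑ S ∈ H.powerset, g S) (J : ℕ) (ω : α → ℕ) (hω : ω ∈ Om α J)
    (hgood : ∃ H ∈ F, InQ (wH g) J ω 0 H) : (1 - g ∅) / 2 ≤ Phi g ω := by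
  obtain ⟨H, hHF, hQ⟩ := hgood
  have hωJ : ∀ x, ω x ≤ J := by
    intro x
    have := (Fintype.mem_piFinset.mp hω) x
    exact Nat.lt_succ_iff.mp (Finset.mem_range.mp this)
  have hw : ∀ x, 0 ≤ wH g H x := by
    intro x
    unfold wH
    exact Finset.sum_nonneg (fun I _ => div_nonneg (hg I) (Nat.cast_nonneg _))
  set W : ℝ := ∑ x ∈ H, wH g H x with hW
  have hW0 : 0 ≤ W := Finset.sum_nonneg (fun x _ => hw x)
  -- each level
  have hlev : ∀ j ∈ range J, ∑ x ∈ H, wH g H x * (if j < ω x then (1 : ℝ) else 0)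
      ≤ (2 / (Dd j : ℝ)) * W := by
    intro j hj
    have hjJ : j < J := Finset.mem_range.mp hj
    have hD : (0 : ℝ) < (Dd j : ℝ) := by unfold Dd; positivity
    have key := m8b_layer_cake H (wH g H) (fun x _ => hw x)
      (fun x => (Dd j : ℝ) * (if j < ω x then (1 : ℝ) else 0) - 2) (by
        intro y hy
        have hq : Dd j * Nn ω j (Lev (wH g H) H y) ≤ 2 * (Lev (wH g H) H y).card := by
          rcases hQ j hjJ y hy with h | h
          · simpa using h
          · omega
        have hq' : (Dd j : ℝ) * (Nn ω j (Lev (wH g H) H y) : ℝ)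
            ≤ 2 * ((Lev (wH g H) H y).card : ℝ) := by exact_mod_cast hq
        rw [Finset.sum_sub_distrib, ← Finset.mul_sum, ← Finset.sum_filter]
        simp only [Finset.sum_const, nsmul_eq_mul, mul_one]
        unfold Nn at hq'
        linarith)
    have e : ∑ x ∈ H, wH g H x * ((Dd j : ℝ) * (if j < ω x then (1 : ℝ) else 0) - 2)
        = (Dd j : ℝ) * ∑ x ∈ H, wH g H x * (if j < ω x then (1 : ℝ) else 0) - 2 * W := by
      rw [hW, Finset.mul_sum, Finset.mul_sum, ← Finset.sum_sub_distrib]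
      apply Finset.sum_congr rfl; intro x _; ring
    rw [e] at key
    rw [div_mul_eq_mul_div, le_div_iff₀ hD]
    linarith
  have hωsum : ∑ x ∈ H, wH g H x * (ω x : ℝ) ≤ W / 2 := by
    have e : ∑ x ∈ H, wH g H x * (ω x : ℝ)
        = ∑ j ∈ range J, ∑ x ∈ H, wH g H x * (if j < ω x then (1 : ℝ) else 0) := by
      rw [Finset.sum_comm]
      apply Finset.sum_congr rfl; intro x _
      rw [← Finset.mul_sum, m8b_label J (ω x) (hωJ x)]
    rw [e]
    calc ∑ j ∈ range J, ∑ x ∈ H, wH g H x * (if j < ω x then (1 : ℝ) else 0)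
        ≤ ∑ j ∈ range J, (2 / (Dd j : ℝ)) * W := Finset.sum_le_sum hlev
      _ = (1 / 2 - 1 / 2 ^ (J + 1)) * W := by rw [← Finset.sum_mul, m8b_geom]
      _ ≤ W / 2 := by
          have : (0 : ℝ) < 1 / 2 ^ (J + 1) := by positivity
          nlinarith
  -- swap
  have hs1 := m8b_swap g H (fun x => (ω x : ℝ))
  have hs0 := m8b_swap g H (fun _ => (1 : ℝ))
  simp only [mul_one] at hs0
  rw [← hW] at hs0
  -- W ≥ 1 - g ∅
  have hWge : 1 - g ∅ ≤ W := by
    have e : ∑ I ∈ H.powerset, g I * ((∑ _x ∈ I, (1 : ℝ)) / I.card)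
        = ∑ I ∈ H.powerset, (g I - if I = ∅ then g ∅ else 0) := by
      apply Finset.sum_congr rfl
      intro I _
      by_cases hI : I = ∅
      · subst hI; simp
      · have hc : (I.card : ℝ) ≠ 0 := by
          exact_mod_cast (Finset.card_pos.mpr (Finset.nonempty_iff_ne_empty.mpr hI)).ne'
        simp [hI, hc]
    rw [hs0, e, Finset.sum_sub_distrib, Finset.sum_ite_eq' H.powerset ∅ (fun _ => g ∅)]
    simp only [Finset.empty_mem_powerset, if_true]
    linarith [hcov H hHF]
  -- pointwise Markov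
  have hpt : ∀ I ∈ H.powerset, g I * ((∑ _x ∈ I, (1 : ℝ)) / I.card)
      - g I * ((∑ x ∈ I, (ω x : ℝ)) / I.card)
      ≤ if (I.Nonempty ∧ ∑ x ∈ I, ω x ≤ I.card) then g I else 0 := by
    intro I _
    by_cases hI : I = ∅
    · subst hI; simp
    · have hne : I.Nonempty := Finset.nonempty_iff_ne_empty.mpr hI
      have hc : (0 : ℝ) < (I.card : ℝ) := by exact_mod_cast Finset.card_pos.mpr hne
      have h1 : (∑ _x ∈ I, (1 : ℝ)) / I.card = 1 := by
        simp [hc.ne']
      rw [h1]
      by_cases hle : ∑ x ∈ I, ω x ≤ I.card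
      · rw [if_pos ⟨hne, hle⟩]
        have : 0 ≤ g I * ((∑ x ∈ I, (ω x : ℝ)) / I.card) :=
          mul_nonneg (hg I) (div_nonneg (Finset.sum_nonneg (fun x _ => Nat.cast_nonneg _)) hc.le)
        linarith
      · rw [if_neg (fun h => hle h.2)]
        have hlt : (I.card : ℝ) ≤ ∑ x ∈ I, (ω x : ℝ) := by
          have : I.card ≤ ∑ x ∈ I, ω x := (not_le.mp hle).le
          exact_mod_cast this
        have : 1 ≤ (∑ x ∈ I, (ω x : ℝ)) / I.card := by
          rw [le_div_iff₀ hc]; linarith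
        nlinarith [hg I]
  have hsum := Finset.sum_le_sum hpt
  rw [Finset.sum_sub_distrib, ← hs0, ← hs1, ← Finset.sum_filter] at hsum
  have hPhi : ∑ I ∈ H.powerset.filter (fun I => I.Nonempty ∧ ∑ x ∈ I, ω x ≤ I.card), g I
      ≤ Phi g ω := by
    unfold Phi
    apply Finset.sum_le_sum_of_subset_of_nonneg
    · intro I hI
      exact Finset.mem_filter.mpr ⟨Finset.mem_univ _, (Finset.mem_filter.mp hI).2⟩
    · intro I _ _; exact hg I
  linarith

end Crest.Agent.S0071Aux
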