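import Crest.Agent.S0071Aux.Defs
import Crest.Agent.S0071Aux.M1

/-! helper76: independent backup of task M9 of the S0071 board (exponential Markov for `Phi`). -/

set_option autoImplicit false

namespace Crest.Agent.S0071Aux

open Finset

variable {α : Type} [Fintype α] [DecidableEq α]

/-- `z j = 16^(1-j)` -/
noncomputable def m9b_z (j : ℕ) : ℝ := 16 * (1 / 16 : ℝ) ^ j

lemma m9b_z_nonneg (j : ℕ) : 0 ≤ m9b_z j := by unfold m9b_z; positivity

lemma m9b_prod_z (I : Finset α) (ω : α → ℕ) :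
    ∏ x ∈ I, m9b_z (ω x) = 16 ^ I.card * (1 / 16 : ℝ) ^ (∑ x ∈ I, ω x) := by
  unfold m9b_z
  rw [Finset.prod_mul_distrib, Finset.prod_const, Finset.prod_pow_eq_pow_sum]

lemma m9b_ind (I : Finset α) (ω : α → ℕ) (h : ∑ x ∈ I, ω x ≤ I.card) :
    1 ≤ ∏ x ∈ I, m9b_z (ω x) := by
  rw [m9b_prod_z]
  have h1 : (1 / 16 : ℝ) ^ I.card ≤ (1 / 16 : ℝ) ^ (∑ x ∈ I, ω x) :=
    pow_le_pow_of_le_one (by norm_num) (by norm_num) h
  calc (1 : ℝ) = 16 ^ I.card * (1 / 16 : ℝ) ^ I.card := by rw [← mul_pow]; norm_num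
    _ ≤ 16 ^ I.card * (1 / 16 : ℝ) ^ (∑ x ∈ I, ω x) := by gcongr

lemma m9b_sum (J : ℕ) (p : ℕ → ℝ) (q : ℝ) (hq : 0 ≤ q)
    (hple : ∀ j ≤ J, p j ≤ Ll j * q) :
    ∑ j ∈ range (J + 1), p j * m9b_z j ≤ 131072 * q := by
  have h1 : ∀ j ∈ range (J + 1), p j * m9b_z j ≤ (65536 * q) * (1 / 2 : ℝ) ^ j := by
    intro j hj
    have hj' : j ≤ J := Nat.lt_succ_iff.mp (mem_range.mp hj)
    have h2 := mul_le_mul_of_nonneg_right (hple j hj') (m9b_z_nonneg j)
    refine h2.trans (le_of_eq ?_)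
    unfold Ll m9b_z
    have : (1 / 2 : ℝ) ^ j = 8 ^ j * (1 / 16 : ℝ) ^ j := by rw [← mul_pow]; norm_num
    rw [this]; ring
  calc ∑ j ∈ range (J + 1), p j * m9b_z j
      ≤ ∑ j ∈ range (J + 1), (65536 * q) * (1 / 2 : ℝ) ^ j := Finset.sum_le_sum h1
    _ = (65536 * q) * ∑ j ∈ range (J + 1), (1 / 2 : ℝ) ^ j := by rw [Finset.mul_sum]
    _ ≤ (65536 * q) * 2 :=
        mul_le_mul_of_nonneg_left (sum_geometric_two_le (J + 1)) (by positivity)
    _ = 131072 * q := by ring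

/-- backup of M9 -/
lemma EPhi_le_b76 (J : ℕ) (p : ℕ → ℝ) (q : ℝ) (hq : 0 ≤ q) (hp0 : ∀ j, 0 ≤ p j)
    (hple : ∀ j ≤ J, p j ≤ Ll j * q) (hsum : ∑ j ∈ range (J + 1), p j = 1)
    (g : Finset α → ℝ) (hg : ∀ S, 0 ≤ g S) :
    ∑ ω ∈ Om α J, Pw p ω * Phi g ω
      ≤ ∑ I ∈ (univ : Finset (Finset α)).filter Finset.Nonempty, g I * (131072 * q) ^ I.card := by
  have hPw : ∀ ω : α → ℕ, 0 ≤ Pw p ω := fun ω => Finset.prod_nonneg fun x _ => hp0 _
  have hPhi : ∀ ω : α → ℕ, Phi g ω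
      ≤ ∑ I ∈ (univ : Finset (Finset α)).filter Finset.Nonempty, g I * ∏ x ∈ I, m9b_z (ω x) := by
    intro ω
    unfold Phi
    rw [Finset.sum_filter, Finset.sum_filter]
    apply Finset.sum_le_sum
    intro I _
    have hZ : 0 ≤ ∏ x ∈ I, m9b_z (ω x) := Finset.prod_nonneg fun x _ => m9b_z_nonneg _
    by_cases h1 : I.Nonempty
    · by_cases h2 : ∑ x ∈ I, ω x ≤ I.card
      · rw [if_pos ⟨h1, h2⟩, if_pos h1]
        exact le_mul_of_one_le_right (hg I) (m9b_ind I ω h2)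
      · rw [if_neg (fun h => h2 h.2), if_pos h1]
        exact mul_nonneg (hg I) hZ
    · rw [if_neg (fun h => h1 h.1), if_neg h1]
  have hS0 : 0 ≤ ∑ j ∈ range (J + 1), p j * m9b_z j :=
    Finset.sum_nonneg fun j _ => mul_nonneg (hp0 j) (m9b_z_nonneg j)
  calc ∑ ω ∈ Om α J, Pw p ω * Phi g ω
      ≤ ∑ ω ∈ Om α J, Pw p ω *
          ∑ I ∈ (univ : Finset (Finset α)).filter Finset.Nonempty, g I * ∏ x ∈ I, m9b_z (ω x) :=
        Finset.sum_le_sum fun ω _ => mul_le_mul_of_nonneg_left (hPhi ω) (hPw ω)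
    _ = ∑ I ∈ (univ : Finset (Finset α)).filter Finset.Nonempty,
          g I * ∑ ω ∈ Om α J, Pw p ω * ∏ x ∈ I, m9b_z (ω x) := by
        simp only [Finset.mul_sum]
        rw [Finset.sum_comm]
        apply Finset.sum_congr rfl
        intro I _
        apply Finset.sum_congr rfl
        intro ω _
        ring
    _ = ∑ I ∈ (univ : Finset (Finset α)).filter Finset.Nonempty,
          g I * (∑ j ∈ range (J + 1), p j * m9b_z j) ^ I.card := by
        apply Finset.sum_congr rfl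
        intro I _
        rw [sum_Pw_prod J p hsum I m9b_z]
    _ ≤ ∑ I ∈ (univ : Finset (Finset α)).filter Finset.Nonempty, g I * (131072 * q) ^ I.card := by
        apply Finset.sum_le_sum
        intro I _
        apply mul_le_mul_of_nonneg_left _ (hg I)
        exact pow_le_pow_left₀ hS0 (m9b_sum J p q hq hple) _

end Crest.Agent.S0071Aux
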